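import Vale.Agent.P207.H575.JJ

/-!
# P207 / H575: the dimensions of the eigenspaces of the Jacobi operators

`d = dim E4`, `e = dim E1`. If `d ≥ 2` and `e > 0` then `d = 3`, or `d = 7` and `e = 8`.
-/

open scoped RealInnerProductSpace Topology
open Module

noncomputable section

set_option linter.unusedSectionVars false
set_option linter.unusedVariables false

namespace Vale.Agent.P207.H575

open H747 H747.ACT

variable {V : Type*} [NormedAddCommGroup V] [InnerProductSpace ℝ V] [FiniteDimensional ℝ V]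

/-- a maximal orthonormal family in a subspace is a basis -/
theorem finrank_of_maximal {ι : Type*} [Fintype ι] {E : Submodule ℝ V} {u : ι → V}
    (hu : Orthonormal ℝ u) (hE : ∀ i, u i ∈ E)
    (hmax : ∀ z ∈ E, (∀ i, ⟪u i, z⟫ = 0) → z = 0) : finrank ℝ E = Fintype.card ι := by
  classical
  have h1 : E = Submodule.span ℝ (Set.range u) := by
    refine le_antisymm (fun z hz => ?_) ?_
    · have h2 : z - ∑ i, ⟪u i, z⟫ • u i = 0 := by
        refine hmax _ (Submodule.sub_mem _ hz (Submodule.sum_mem _ fun i _ =>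
          Submodule.smul_mem _ _ (hE i))) fun j => ?_
        rw [inner_sub_right, inner_sum]
        simp only [inner_smul_right, orthonormal_iff_ite.1 hu]
        simp
      rw [sub_eq_zero.1 h2]
      exact Submodule.sum_mem _ fun i _ => Submodule.smul_mem _ _
        (Submodule.subset_span (Set.mem_range_self i))
    · rw [Submodule.span_le]
      rintro _ ⟨i, rfl⟩
      exact hE i
  rw [h1]
  exact finrank_span_eq_card hu.linearIndependent

variable {S : ACT V} {v x x' y y' z z' u w l a b c p q r t : V}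

theorem inner_J_self (S : ACT V) (v y x : V) : ⟪x, J S v y x⟫ = 0 := by
  have h6 := J_skew S v y x x
  rw [real_inner_comm] at h6
  linarith

theorem inner_J_self' (S : ACT V) (v y x : V) : ⟪J S v y x, x⟫ = 0 := by
  rw [real_inner_comm]; exact inner_J_self S v y x

/-- `exists_JJ` for every `x` in `E1` -/
theorem exists_JJ' (hn : 2 ≤ finrank ℝ V) (h : S.Nrm 2) (hv : ‖v‖ = 1) (hx : S.K v x = x)
    (hy : S.K v y = (4 : ℝ) • y) (hy' : S.K v y' = (4 : ℝ) • y') :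
    ∃ w, S.K v w = (4 : ℝ) • w ∧ J S v y (J S v y' x) = -⟪y, y'⟫ • x + J S v w x := by
  by_cases h0 : x = 0
  · exact ⟨0, by simp, by rw [h0]; simp⟩
  have hr : 0 < ‖x‖ := norm_pos_iff.2 h0
  have hx1 : S.K v (‖x‖⁻¹ • x) = ‖x‖⁻¹ • x := E1_smul _ hx
  have hx2 : ‖(‖x‖⁻¹ • x)‖ = 1 := by
    rw [norm_smul, norm_inv, norm_norm, inv_mul_cancel₀ hr.ne']
  obtain ⟨w, hw, hw2⟩ := exists_JJ hn h hv hx1 hx2 hy hy'
  refine ⟨w, hw, ?_⟩
  have h1 : x = ‖x‖ • (‖x‖⁻¹ • x) := by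
    rw [smul_smul, mul_inv_cancel₀ hr.ne', one_smul]
  rw [h1]
  simp only [map_smul] at hw2 ⊢
  rw [hw2, smul_add, smul_comm]

/-- products of orthogonal vectors -/
theorem exists_prod (hn : 2 ≤ finrank ℝ V) (h : S.Nrm 2) (hv : ‖v‖ = 1) (hx : S.K v x = x)
    (hy : S.K v y = (4 : ℝ) • y) (hy' : S.K v y' = (4 : ℝ) • y') (h0 : ⟪y, y'⟫ = 0) :
    ∃ w, S.K v w = (4 : ℝ) • w ∧ J S v y (J S v y' x) = J S v w x := by
  obtain ⟨w, hw, hw2⟩ := exists_JJ' hn h hv hx hy hy'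
  exact ⟨w, hw, by rw [hw2, h0]; simp⟩

section Main

variable (h : S.Nrm 2) (hv : ‖v‖ = 1) (hx : S.K v x = x)
include h hv hx

/-- the inner product of `E4` seen on `x` -/
theorem inner_of_J (hx1 : ‖x‖ = 1) (hy : S.K v y = (4 : ℝ) • y) (hy' : S.K v y' = (4 : ℝ) • y') :
    ⟪y, y'⟫ = ⟪J S v y x, J S v y' x⟫ := by
  rw [J_inner h hv hx hy hy', inner_self_one hx1, mul_one]

theorem J_inj (hx1 : ‖x‖ = 1) (hy : S.K v y = (4 : ℝ) • y) (hy' : S.K v y' = (4 : ℝ) • y')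
    (he : J S v y x = J S v y' x) : y = y' := by
  have h1 := inner_of_J h hv hx hx1 (E4_sub hy hy') (E4_sub hy hy')
  rw [J_sub, LinearMap.sub_apply, he, sub_self, inner_zero_left] at h1
  exact sub_eq_zero.1 (inner_self_eq_zero.1 h1)

/-- the alternative law -/
theorem star (hp : S.K v p = (4 : ℝ) • p) (hq : S.K v q = (4 : ℝ) • q)
    (hr : S.K v r = (4 : ℝ) • r) (ht : S.K v t = (4 : ℝ) • t)
    (hpq : J S v p (J S v q x) = J S v r x) (h1 : ⟪t, p⟫ = 0) (h2 : ⟪t, q⟫ = 0)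
    (h3 : ⟪t, r⟫ = 0) : J S v p (J S v q (J S v t x)) = -J S v r (J S v t x) := by
  have hqx := J_mem h hv hx hq
  rw [real_inner_comm] at h1 h2 h3
  rw [J_anti h hv hx hq ht h2, map_neg, J_anti h hv hqx hp ht h1, neg_neg, hpq,
    J_anti h hv hx hr ht h3, neg_neg]

/-- the quaternion relations on `x` -/
theorem tri (ha : S.K v a = (4 : ℝ) • a) (hb : S.K v b = (4 : ℝ) • b)
    (hc : S.K v c = (4 : ℝ) • c) (ha1 : ⟪a, a⟫ = 1) (hb1 : ⟪b, b⟫ = 1) (hab : ⟪a, b⟫ = 0)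
    (hx1 : ‖x‖ = 1) (habc : J S v a (J S v b x) = J S v c x) :
    ⟪c, c⟫ = 1 ∧ ⟪a, c⟫ = 0 ∧ ⟪b, c⟫ = 0 ∧ J S v b (J S v c x) = J S v a x
      ∧ J S v c (J S v a x) = J S v b x := by
  have hax := J_mem h hv hx ha
  have hbx := J_mem h hv hx hb
  have hcx := J_mem h hv hx hc
  have haa := J_sq h hv hbx ha
  have hxx := inner_self_one hx1
  have hac : ⟪a, c⟫ = 0 := by
    rw [inner_of_J h hv hx hx1 ha hc, ← habc, ← neg_eq_zero, ← J_skew, J_sq h hv hx ha,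
      inner_smul_left, inner_J_self, mul_zero]
  have hbc : ⟪b, c⟫ = 0 := by
    have h1 : J S v a (J S v b x) = -J S v b (J S v a x) := J_anti h hv hx ha hb hab
    rw [inner_of_J h hv hx hx1 hb hc, ← habc, h1, inner_neg_right, ← J_skew, J_sq h hv hx hb,
      inner_smul_left, inner_J_self, mul_zero]
  refine ⟨?_, hac, hbc, ?_, ?_⟩
  · rw [inner_of_J h hv hx hx1 hc hc, ← habc, J_inner h hv hbx ha ha, ha1,
      J_inner h hv hx hb hb, hb1, hxx]
    norm_num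
  · have hba : ⟪b, a⟫ = 0 := by rw [real_inner_comm]; exact hab
    rw [← habc, J_anti h hv hbx hb ha hba, J_sq h hv hx hb, hb1, map_smul]
    module
  · have hca : ⟪c, a⟫ = 0 := by rw [real_inner_comm]; exact hac
    rw [J_anti h hv hx hc ha hca, ← habc, haa, ha1]
    module

end Main

/-- an orthonormal triple `a, b, c` with `J_a J_b x = J_c x` -/
structure Tri (S : ACT V) (v x a b c : V) : Prop where
  ha : S.K v a = (4 : ℝ) • a
  hb : S.K v b = (4 : ℝ) • b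
  hc : S.K v c = (4 : ℝ) • c
  aa : ⟪a, a⟫ = 1
  bb : ⟪b, b⟫ = 1
  cc : ⟪c, c⟫ = 1
  ab : ⟪a, b⟫ = 0
  ac : ⟪a, c⟫ = 0
  bc : ⟪b, c⟫ = 0
  jab : J S v a (J S v b x) = J S v c x
  jbc : J S v b (J S v c x) = J S v a x
  jca : J S v c (J S v a x) = J S v b x

/-- existence of triples -/
theorem exists_tri (hn : 2 ≤ finrank ℝ V) (h : S.Nrm 2) (hv : ‖v‖ = 1) (hx : S.K v x = x)
    (hx1 : ‖x‖ = 1) (ha : S.K v a = (4 : ℝ) • a) (hb : S.K v b = (4 : ℝ) • b)
    (aa : ⟪a, a⟫ = 1) (bb : ⟪b, b⟫ = 1) (ab : ⟪a, b⟫ = 0) : ∃ c, Tri S v x a b c := by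
  obtain ⟨c, hc, hc2⟩ := exists_prod hn h hv hx ha hb ab
  obtain ⟨h1, h2, h3, h4, h5⟩ := tri h hv hx ha hb hc aa bb ab hx1 hc2
  exact ⟨c, ha, hb, hc, aa, bb, h1, ab, h2, h3, hc2, h4, h5⟩

theorem Tri.rot (T : Tri S v x a b c) : Tri S v x b c a :=
  ⟨T.hb, T.hc, T.ha, T.bb, T.cc, T.aa, T.bc, by rw [real_inner_comm]; exact T.ab,
    by rw [real_inner_comm]; exact T.ac, T.jbc, T.jca, T.jab⟩

section Eight

variable (h : S.Nrm 2) (hv : ‖v‖ = 1) (hx : S.K v x = x) (hx1 : ‖x‖ = 1)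
include h hv hx hx1

theorem Tri.jba (T : Tri S v x a b c) : J S v b (J S v a x) = -J S v c x := by
  rw [J_anti h hv hx T.hb T.ha (by rw [real_inner_comm]; exact T.ab), T.jab]

omit hx1 in
/-- doubling: orthogonality to the triple of the products with `l` -/
theorem Tri.dbl (T : Tri S v x a b c) (hx1 : ‖x‖ = 1) (hl : S.K v l = (4 : ℝ) • l)
    (la : ⟪a, l⟫ = 0) (lb : ⟪b, l⟫ = 0) (lc : ⟪c, l⟫ = 0) (hw : S.K v w = (4 : ℝ) • w)
    (hw2 : J S v a (J S v l x) = J S v w x) (l1 : ⟪l, l⟫ = 1) :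
    ⟪w, w⟫ = 1 ∧ ⟪w, l⟫ = 0 ∧ ⟪w, a⟫ = 0 ∧ ⟪w, b⟫ = 0 ∧ ⟪w, c⟫ = 0 := by
  have hlx := J_mem h hv hx hl
  have hxx := inner_self_one hx1
  refine ⟨?_, ?_, ?_, ?_, ?_⟩
  · rw [inner_of_J h hv hx hx1 hw hw, ← hw2, J_inner h hv hlx T.ha T.ha, T.aa,
      J_inner h hv hx hl hl, l1, hxx]
    norm_num
  · rw [inner_of_J h hv hx hx1 hw hl, ← hw2, inner_J_self']
  · rw [inner_of_J h hv hx hx1 hw T.ha, ← hw2, J_skew, J_sq h hv hx T.ha, inner_smul_right,
      inner_J_self', mul_zero, neg_zero]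
  · rw [inner_of_J h hv hx hx1 hw T.hb, ← hw2, J_skew, T.jab, ← inner_of_J h hv hx hx1 hl T.hc,
      real_inner_comm, lc, neg_zero]
  · rw [inner_of_J h hv hx hx1 hw T.hc, ← hw2, J_skew, T.rot.rot.jba h hv hx hx1, inner_neg_right,
      ← inner_of_J h hv hx hx1 hl T.hb, real_inner_comm, lb, neg_zero, neg_zero]

/-- the products with `l` are orthogonal to each other -/
theorem dbl_orth (ha : S.K v a = (4 : ℝ) • a) (hb : S.K v b = (4 : ℝ) • b) (ab : ⟪a, b⟫ = 0)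
    (hl : S.K v l = (4 : ℝ) • l) (hw : S.K v w = (4 : ℝ) • w) (hz : S.K v z = (4 : ℝ) • z)
    (hw2 : J S v a (J S v l x) = J S v w x) (hz2 : J S v b (J S v l x) = J S v z x) :
    ⟪w, z⟫ = 0 := by
  rw [inner_of_J h hv hx hx1 hw hz, ← hw2, ← hz2, J_inner h hv (J_mem h hv hx hl) ha hb, ab,
    zero_mul]

/-- no room for a further unit vector -/
theorem Tri.max (hn : 2 ≤ finrank ℝ V) (T : Tri S v x a b c) {la lb lc m : V}
    (hl : S.K v l = (4 : ℝ) • l) (l1 : ⟪l, l⟫ = 1)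
    (la0 : ⟪a, l⟫ = 0) (lb0 : ⟪b, l⟫ = 0) (lc0 : ⟪c, l⟫ = 0)
    (hla : S.K v la = (4 : ℝ) • la) (hla2 : J S v a (J S v l x) = J S v la x)
    (hlb : S.K v lb = (4 : ℝ) • lb) (hlb2 : J S v b (J S v l x) = J S v lb x)
    (hlc : S.K v lc = (4 : ℝ) • lc) (hlc2 : J S v c (J S v l x) = J S v lc x)
    (hm : S.K v m = (4 : ℝ) • m) (ma : ⟪a, m⟫ = 0) (mb : ⟪b, m⟫ = 0) (mc : ⟪c, m⟫ = 0)
    (ml : ⟪l, m⟫ = 0) (mla : ⟪la, m⟫ = 0) (mlb : ⟪lb, m⟫ = 0) (mlc : ⟪lc, m⟫ = 0) : m = 0 := by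
  have sw : ∀ {p q : V}, ⟪p, q⟫ = 0 → ⟪q, p⟫ = 0 := fun {p q} h0 => by
    rw [real_inner_comm]; exact h0
  have hmx := J_mem h hv hx hm
  obtain ⟨k, hk, hk2⟩ := exists_prod hn h hv hx hl hm ml
  -- `k = l m` is orthogonal to `a, b, c`
  have ok : ∀ {p q : V}, S.K v p = (4 : ℝ) • p → S.K v q = (4 : ℝ) • q → ⟪p, l⟫ = 0 →
      J S v p (J S v l x) = J S v q x → ⟪q, m⟫ = 0 → ⟪k, p⟫ = 0 := by
    intro p q hp hq hpl hpq hqm
    have h1 : J S v l (J S v p x) = -J S v q x := by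
      rw [J_anti h hv hx hl hp (sw hpl), hpq]
    rw [inner_of_J h hv hx hx1 hk hp, ← hk2, J_skew, h1, inner_neg_right,
      ← inner_of_J h hv hx hx1 hm hq, sw hqm, neg_zero, neg_zero]
  have ka := ok T.ha hla la0 hla2 mla
  have kb := ok T.hb hlb lb0 hlb2 mlb
  have kc := ok T.hc hlc lc0 hlc2 mlc
  -- first evaluation
  have e1 : J S v a (J S v b (J S v k x)) = -J S v c (J S v k x) :=
    star h hv hx T.ha T.hb T.hc hk T.jab ka kb kc
  have e2 : J S v c (J S v l (J S v m x)) = -J S v lc (J S v m x) :=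
    star h hv hx T.hc hl hlc hm hlc2 (sw mc) (sw ml) (sw mlc)
  have e3 : J S v b (J S v l (J S v m x)) = -J S v lb (J S v m x) :=
    star h hv hx T.hb hl hlb hm hlb2 (sw mb) (sw ml) (sw mlb)
  have e4 : J S v a (J S v lb x) = J S v (-lc) x := by
    rw [← hlb2, star h hv hx T.ha T.hb T.hc hl T.jab (sw la0) (sw lb0) (sw lc0), hlc2, J_neg,
      LinearMap.neg_apply]
  have e5 : J S v a (J S v lb (J S v m x)) = -J S v (-lc) (J S v m x) :=
    star h hv hx T.ha hlb (E4_neg hlc) hm e4 (sw ma) (sw mlb) (by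
      rw [inner_neg_right, sw mlc, neg_zero])
  rw [← hk2, e2, e3, map_neg, e5, neg_neg, neg_neg, J_neg, LinearMap.neg_apply] at e1
  have h2 : J S v lc (J S v m x) = 0 := by
    have h3 : (2 : ℝ) • J S v lc (J S v m x) = 0 := by
      rw [two_smul]
      nth_rewrite 1 [← e1]
      simp
    exact (smul_eq_zero.1 h3).resolve_left two_ne_zero
  have h4 : ⟪lc, lc⟫ = 1 := (T.rot.rot.dbl h hv hx hx1 hl lc0 la0 lb0 hlc hlc2 l1).1
  have h5 := J_inner h hv hmx hlc hlc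
  rw [h2, inner_zero_left, h4, one_mul, J_inner h hv hx hm hm, inner_self_one hx1, mul_one] at h5
  exact inner_self_eq_zero.1 h5.symm

end Eight

/-- an orthonormal pair -/
theorem exists_pair {E : Submodule ℝ V} (hd : 2 ≤ finrank ℝ E) :
    ∃ a b : V, a ∈ E ∧ b ∈ E ∧ ⟪a, a⟫ = 1 ∧ ⟪b, b⟫ = 1 ∧ ⟪a, b⟫ = 0 := by
  let e := stdOrthonormalBasis ℝ E
  have h1 := orthonormal_iff_ite.1 e.orthonormal
  let i : Fin (finrank ℝ E) := ⟨0, by omega⟩
  let j : Fin (finrank ℝ E) := ⟨1, by omega⟩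
  have hij : i ≠ j := by
    intro h
    have := congrArg Fin.val h
    simp [i, j] at this
  refine ⟨e i, e j, (e i).2, (e j).2, ?_, ?_, ?_⟩
  · have := h1 i i
    rw [if_pos rfl] at this
    exact this
  · have := h1 j j
    rw [if_pos rfl] at this
    exact this
  · have := h1 i j
    rw [if_neg hij] at this
    exact this

theorem nrm_one (aa : ⟪a, a⟫ = 1) : ‖a‖ = 1 := by
  rw [real_inner_self_eq_norm_sq] at aa
  exact (pow_eq_one_iff_of_nonneg (norm_nonneg _) two_ne_zero).1 aa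

theorem orthonormal_three (aa : ⟪a, a⟫ = 1) (bb : ⟪b, b⟫ = 1) (cc : ⟪c, c⟫ = 1) (ab : ⟪a, b⟫ = 0)
    (ac : ⟪a, c⟫ = 0) (bc : ⟪b, c⟫ = 0) : Orthonormal ℝ ![a, b, c] := by
  have ba : ⟪b, a⟫ = 0 := by rw [real_inner_comm]; exact ab
  have ca : ⟪c, a⟫ = 0 := by rw [real_inner_comm]; exact ac
  have cb : ⟪c, b⟫ = 0 := by rw [real_inner_comm]; exact bc
  rw [orthonormal_iff_ite]
  intro i j
  fin_cases i <;> fin_cases j <;> simp [nrm_one aa, nrm_one bb, nrm_one cc, ab, ac, bc, ba, ca, cb]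

/-- normalisation -/
theorem exists_unit {z : V} (hz : z ≠ 0) : ⟪‖z‖⁻¹ • z, ‖z‖⁻¹ • z⟫ = 1 := by
  rw [real_inner_self_eq_norm_sq, norm_smul, norm_inv, norm_norm,
    inv_mul_cancel₀ (norm_pos_iff.2 hz).ne', one_pow]

/-- a unit vector of `E4` orthogonal to a triple -/
structure Four (S : ACT V) (v x a b c l : V) : Prop extends Tri S v x a b c where
  hl : S.K v l = (4 : ℝ) • l
  ll : ⟪l, l⟫ = 1
  al : ⟪a, l⟫ = 0
  bl : ⟪b, l⟫ = 0
  cl : ⟪c, l⟫ = 0

/-- `d = 3` or there is a fourth vector -/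
theorem three_or (hn : 2 ≤ finrank ℝ V) (h : S.Nrm 2) (hv : ‖v‖ = 1) (hx : S.K v x = x)
    (hx1 : ‖x‖ = 1) (hd : 2 ≤ finrank ℝ (E4 S v)) :
    (finrank ℝ (E4 S v) = 3 ∧ ∃ a b c, Tri S v x a b c) ∨ ∃ a b c l, Four S v x a b c l := by
  obtain ⟨a, b, ha, hb, aa, bb, ab⟩ := exists_pair hd
  rw [mem_E4] at ha hb
  obtain ⟨c, T⟩ := exists_tri hn h hv hx hx1 ha hb aa bb ab
  by_cases hm : ∀ z ∈ E4 S v, ⟪a, z⟫ = 0 → ⟪b, z⟫ = 0 → ⟪c, z⟫ = 0 → z = 0
  · left
    refine ⟨?_, a, b, c, T⟩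
    have := finrank_of_maximal (E := E4 S v) (orthonormal_three T.aa T.bb T.cc T.ab T.ac T.bc)
      (fun i => by fin_cases i; exacts [mem_E4.2 T.ha, mem_E4.2 T.hb, mem_E4.2 T.hc])
      (fun z hz h0 => hm z hz (h0 0) (h0 1) (h0 2))
    simpa using this
  · right
    push Not at hm
    obtain ⟨z, hz, h1, h2, h3, hz0⟩ := hm
    refine ⟨a, b, c, ‖z‖⁻¹ • z, T, E4_smul _ (mem_E4.1 hz), exists_unit hz0, ?_, ?_, ?_⟩ <;>
    simp [inner_smul_right, h1, h2, h3]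

/-- **`d = 7`** -/
theorem Four.seven (hn : 2 ≤ finrank ℝ V) (h : S.Nrm 2) (hv : ‖v‖ = 1) (hx : S.K v x = x)
    (hx1 : ‖x‖ = 1) (T : Four S v x a b c l) : finrank ℝ (E4 S v) = 7 := by
  obtain ⟨la, hla, hla2⟩ := exists_prod hn h hv hx T.ha T.hl T.al
  obtain ⟨lb, hlb, hlb2⟩ := exists_prod hn h hv hx T.hb T.hl T.bl
  obtain ⟨lc, hlc, hlc2⟩ := exists_prod hn h hv hx T.hc T.hl T.cl
  have T1 := T.toTri
  obtain ⟨a1, a2, a3, a4, a5⟩ := T1.dbl h hv hx hx1 T.hl T.al T.bl T.cl hla hla2 T.ll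
  obtain ⟨b1, b2, b3, b4, b5⟩ := T1.rot.dbl h hv hx hx1 T.hl T.bl T.cl T.al hlb hlb2 T.ll
  obtain ⟨c1, c2, c3, c4, c5⟩ := T1.rot.rot.dbl h hv hx hx1 T.hl T.cl T.al T.bl hlc hlc2 T.ll
  have o1 := dbl_orth h hv hx hx1 T.ha T.hb T.ab T.hl hla hlb hla2 hlb2
  have o2 := dbl_orth h hv hx hx1 T.ha T.hc T.ac T.hl hla hlc hla2 hlc2
  have o3 := dbl_orth h hv hx hx1 T.hb T.hc T.bc T.hl hlb hlc hlb2 hlc2
  have sw : ∀ {p q : V}, ⟪p, q⟫ = 0 → ⟪q, p⟫ = 0 := fun {p q} h0 => by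
    rw [real_inner_comm]; exact h0
  have hon : Orthonormal ℝ ![a, b, c, l, la, lb, lc] := by
    rw [orthonormal_iff_ite]
    intro i j
    fin_cases i <;> fin_cases j <;> simp [nrm_one T.aa, nrm_one T.bb, nrm_one T.cc, T.ab, T.ac,
      T.bc, sw T.ab, sw T.ac, sw T.bc, nrm_one T.ll, T.al, T.bl, T.cl, sw T.al, sw T.bl, sw T.cl,
      nrm_one a1, a2, a3, a4, a5, nrm_one b1, b2, b3, b4, b5, nrm_one c1, c2, c3, c4, c5, sw a2,
      sw a3, sw a4, sw a5, sw b2, sw b3, sw b4, sw b5, sw c2, sw c3, sw c4, sw c5, o1, o2, o3,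
      sw o1, sw o2, sw o3]
  have := finrank_of_maximal (E := E4 S v) hon
    (fun i => by
      fin_cases i
      exacts [mem_E4.2 T.ha, mem_E4.2 T.hb, mem_E4.2 T.hc, mem_E4.2 T.hl, mem_E4.2 hla,
        mem_E4.2 hlb, mem_E4.2 hlc])
    (fun z hz h0 => T1.max h hv hx hx1 hn T.hl T.ll T.al T.bl T.cl hla hla2 hlb hlb2 hlc hlc2
      (mem_E4.1 hz) (h0 0) (h0 1) (h0 2) (h0 3) (h0 4) (h0 5) (h0 6))
  simpa using this

/-- **if `d = 7` then `E1` is spanned by `x` and the `J_y x`** -/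
theorem Four.span_E1 (hn : 2 ≤ finrank ℝ V) (h : S.Nrm 2) (hv : ‖v‖ = 1) (hx : S.K v x = x)
    (hx1 : ‖x‖ = 1) (T : Four S v x a b c l) (hx' : S.K v x' = x') (h0 : ⟪x, x'⟫ = 0)
    (hJ : ∀ y, S.K v y = (4 : ℝ) • y → ⟪J S v y x, x'⟫ = 0) : x' = 0 := by
  by_contra hne
  -- the product does not depend on the base vector
  have key : ∀ {x c : V}, S.K v x = x → x ≠ 0 → S.K v c = (4 : ℝ) • c →
      ⟪x, x'⟫ = 0 → (∀ y, S.K v y = (4 : ℝ) • y → ⟪J S v y x, x'⟫ = 0) →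
      J S v a (J S v b x) = J S v c x → ∀ c', S.K v c' = (4 : ℝ) • c' →
      J S v a (J S v b x') = J S v c' x' → c = c' := by
    intro x c hx hx0 hc h0 hJ e1 c' hc' e2
    obtain ⟨d, hd, hd2⟩ := exists_prod hn h hv (E1_add hx hx') T.ha T.hb T.ab
    have e3 : J S v (d - c) x = J S v (c' - d) x' := by
      simp only [map_add, e1, e2] at hd2
      rw [J_sub, J_sub, LinearMap.sub_apply, LinearMap.sub_apply, sub_eq_sub_iff_add_eq_add,
        add_comm (J S v c' x'), hd2]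
    have gen : ∀ {p q : V}, S.K v p = (4 : ℝ) • p → S.K v q = (4 : ℝ) • q →
        ⟪J S v p x, J S v q x'⟫ = 0 := by
      intro p q hp hq
      obtain ⟨w, hw, hw2⟩ := exists_JJ' hn h hv hx hq hp
      rw [real_inner_comm, J_skew, hw2, inner_add_right, inner_smul_right, real_inner_comm x x',
        h0, real_inner_comm (J S v w x) x', hJ w hw]
      simp
    have e4 : d - c = 0 := by
      have h1 : ⟪J S v (d - c) x, J S v (d - c) x⟫ = 0 := by
        nth_rewrite 2 [e3]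
        exact gen (E4_sub hd hc) (E4_sub hc' hd)
      rw [J_inner h hv hx (E4_sub hd hc) (E4_sub hd hc)] at h1
      exact inner_self_eq_zero.1 ((mul_eq_zero.1 h1).resolve_right
        (inner_self_ne_zero.2 hx0))
    have e5 : c' - d = 0 := by
      have h1 : ⟪J S v (c' - d) x', J S v (c' - d) x'⟫ = 0 := by
        rw [← e3, e4, J_zero]
        simp
      rw [J_inner h hv hx' (E4_sub hc' hd) (E4_sub hc' hd)] at h1
      exact inner_self_eq_zero.1 ((mul_eq_zero.1 h1).resolve_right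
        (inner_self_ne_zero.2 hne))
    rw [← sub_eq_zero.1 e4, ← sub_eq_zero.1 e5]
  obtain ⟨c', hc', hc'2⟩ := exists_prod hn h hv hx' T.ha T.hb T.ab
  have hx0 : x ≠ 0 := by
    intro h1
    rw [h1, norm_zero] at hx1
    exact zero_ne_one hx1
  have k1 := key hx hx0 T.hc h0 hJ T.jab c' hc' hc'2
  -- the same for `J_l x`
  have hlx := J_mem h hv hx T.hl
  have hlx0 : J S v l x ≠ 0 := by
    intro h1
    have h2 := J_inner h hv hx T.hl T.hl
    rw [h1, inner_zero_left, T.ll, inner_self_one hx1, one_mul] at h2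
    exact zero_ne_one h2
  obtain ⟨d, hd, hd2⟩ := exists_prod hn h hv hlx T.ha T.hb T.ab
  have k2 := key hlx hlx0 hd (hJ l T.hl) (fun y hy => by
    obtain ⟨w, hw, hw2⟩ := exists_JJ' hn h hv hx hy T.hl
    rw [hw2, inner_add_left, inner_smul_left, h0, hJ w hw]
    simp) hd2 c' hc' hc'2
  have sw : ∀ {p q : V}, ⟪p, q⟫ = 0 → ⟪q, p⟫ = 0 := fun {p q} h0 => by
    rw [real_inner_comm]; exact h0
  have e1 : J S v a (J S v b (J S v l x)) = -J S v c (J S v l x) :=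
    star h hv hx T.ha T.hb T.hc T.hl T.jab (sw T.al) (sw T.bl) (sw T.cl)
  rw [hd2, k2, ← k1] at e1
  have h2 : J S v c (J S v l x) = 0 := by
    have h3 : (2 : ℝ) • J S v c (J S v l x) = 0 := by
      rw [two_smul]
      nth_rewrite 1 [e1]
      simp
    exact (smul_eq_zero.1 h3).resolve_left two_ne_zero
  have h5 := J_inner h hv hlx T.hc T.hc
  rw [h2, inner_zero_left, T.cc, one_mul] at h5
  exact hlx0 (inner_self_eq_zero.1 h5.symm)

/-! ### the dimensions -/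

/-- `dim V = 1 + d + e` -/
theorem finrank_decomp (h : S.Nrm 2) (hv : ‖v‖ = 1) :
    finrank ℝ V = 1 + finrank ℝ (E4 S v) + finrank ℝ (E1 S v) := by
  have hv0 : v ≠ 0 := by
    intro h1
    rw [h1, norm_zero] at hv
    exact zero_ne_one hv
  have h1 := Submodule.finrank_sup_add_finrank_inf_eq (ℝ ∙ v) (E4 S v)
  have h2 := Submodule.finrank_sup_add_finrank_inf_eq ((ℝ ∙ v) ⊔ E4 S v) (E1 S v)
  have i1 : (ℝ ∙ v) ⊓ E4 S v = ⊥ := by
    rw [eq_bot_iff]
    intro z hz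
    obtain ⟨hz1, hz2⟩ := Submodule.mem_inf.1 hz
    obtain ⟨c, rfl⟩ := Submodule.mem_span_singleton.1 hz1
    have h3 := orth4 (mem_E4.1 hz2)
    rw [inner_smul_left, inner_self_one hv] at h3
    simp only [conj_trivial, mul_one] at h3
    rw [h3, zero_smul]
    exact Submodule.zero_mem _
  have i2 : ((ℝ ∙ v) ⊔ E4 S v) ⊓ E1 S v = ⊥ := by
    rw [eq_bot_iff]
    intro z hz
    obtain ⟨hz1, hz2⟩ := Submodule.mem_inf.1 hz
    obtain ⟨w, hw, y, hy, rfl⟩ := Submodule.mem_sup.1 hz1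
    obtain ⟨s, rfl⟩ := Submodule.mem_span_singleton.1 hw
    have h3 := orth1 (mem_E1.1 hz2)
    have h4 := orth14 (mem_E1.1 hz2) (mem_E4.1 hy)
    have h5 : ⟪s • v + y, s • v + y⟫ = 0 := by
      rw [inner_add_right (s • v + y) (s • v) y, inner_smul_right, h3, h4]
      simp
    rw [inner_self_eq_zero.1 h5]
    exact Submodule.zero_mem _
  have t : ((ℝ ∙ v) ⊔ E4 S v) ⊔ E1 S v = ⊤ := by
    rw [eq_top_iff]
    intro z _
    obtain ⟨w, x, hw, hx, rfl⟩ := h.leaf_decomp hv z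
    exact Submodule.add_mem_sup hw (mem_E1.2 hx)
  rw [i1, finrank_bot, add_zero, finrank_span_singleton hv0] at h1
  rw [i2, t, finrank_bot, add_zero, finrank_top, h1] at h2
  exact h2

/-- **if there is a fourth vector then `d = 7`, `e = 8`, `dim V = 16`** -/
theorem Four.dims (hn : 2 ≤ finrank ℝ V) (h : S.Nrm 2) (hv : ‖v‖ = 1) (hx : S.K v x = x)
    (hx1 : ‖x‖ = 1) (T : Four S v x a b c l) :
    finrank ℝ (E4 S v) = 7 ∧ finrank ℝ (E1 S v) = 8 ∧ finrank ℝ V = 16 := by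
  have h7 := T.seven hn h hv hx hx1
  have hxx := inner_self_one hx1
  -- an orthonormal basis of `E4`
  let e := stdOrthonormalBasis ℝ (E4 S v)
  have he := orthonormal_iff_ite.1 e.orthonormal
  have hmem : ∀ i, S.K v (e i) = (4 : ℝ) • (e i : V) := fun i => mem_E4.1 (e i).2
  let F : Option (Fin (finrank ℝ (E4 S v))) → V := fun o =>
    match o with
    | none => x
    | some i => J S v (e i) x
  have hF : Orthonormal ℝ F := by
    rw [orthonormal_iff_ite]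
    rintro (_ | i) (_ | j)
    · simp only [if_true]; exact hxx
    · simp only [reduceCtorEq, if_false]; exact inner_J_self S v (e j) x
    · simp only [reduceCtorEq, if_false]; exact inner_J_self' S v (e i) x
    · show ⟪J S v (e i) x, J S v (e j) x⟫ = _
      rw [J_inner h hv hx (hmem i) (hmem j), hxx, mul_one]
      have h1 := he i j
      simp only [Option.some.injEq]
      exact h1
  have h8 := finrank_of_maximal (E := E1 S v) hF
    (fun o => by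
      rcases o with _ | i
      · exact mem_E1.2 hx
      · exact mem_E1.2 (J_mem h hv hx (hmem i)))
    (fun z hz h0 => by
      refine T.span_E1 hn h hv hx hx1 (mem_E1.1 hz) (h0 none) fun y hy => ?_
      let y' : E4 S v := ⟨y, mem_E4.2 hy⟩
      have h1 : y = ∑ i, ⟪(e i : V), y⟫ • (e i : V) := by
        have h2 := e.sum_repr' y'
        have h3 := congrArg Subtype.val h2
        rw [Submodule.coe_sum] at h3
        exact h3.symm
      rw [h1]
      have h4 : J S v (∑ i, ⟪(e i : V), y⟫ • (e i : V)) x =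
          ∑ i, ⟪(e i : V), y⟫ • J S v (e i) x := by
        unfold J
        rw [map_sum, Finset.smul_sum, LinearMap.sum_apply]
        refine Finset.sum_congr rfl fun i _ => ?_
        rw [map_smul, LinearMap.smul_apply, LinearMap.smul_apply, LinearMap.smul_apply, smul_comm]
      rw [h4, sum_inner]
      refine Finset.sum_eq_zero fun i _ => ?_
      rw [inner_smul_left, h0 (some i), mul_zero])
  rw [Fintype.card_option, Fintype.card_fin, h7] at h8
  refine ⟨h7, h8, ?_⟩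
  rw [finrank_decomp h hv, h7, h8]

/-- **the dimensions**: `d ≥ 2` and `E1 ≠ 0` imply `d = 3`, or `d = 7`, `e = 8` and `dim V = 16` -/
theorem dims (hn : 2 ≤ finrank ℝ V) (h : S.Nrm 2) (hv : ‖v‖ = 1) (hx : S.K v x = x)
    (hx0 : x ≠ 0) (hd : 2 ≤ finrank ℝ (E4 S v)) :
    finrank ℝ (E4 S v) = 3 ∨
      (finrank ℝ (E4 S v) = 7 ∧ finrank ℝ (E1 S v) = 8 ∧ finrank ℝ V = 16) := by
  have hx1 : ‖(‖x‖⁻¹ • x)‖ = 1 := nrm_one (exists_unit hx0)
  rcases three_or hn h hv (E1_smul (‖x‖⁻¹) hx) hx1 hd with ⟨h3, -⟩ | ⟨a, b, c, l, T⟩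
  · exact Or.inl h3
  · exact Or.inr (T.dims hn h hv (E1_smul _ hx) hx1)

end Vale.Agent.P207.H575
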