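import Vale.Agent.P207.H747.Alg4

/-!
# P207 / H575: the maps `J_y = (1/2) R(v,y)` on the eigenspace of `1`, the leaf through `x`,
and the dimensions of the eigenspaces

`h : S.Nrm 2`, `‖v‖ = 1`, `E4 = ker (K v - 4)`, `E1 = ker (K v - 1)`. For `x` in `E1` and
`y, y'` in `E4` one has `J_y J_{y'} x = -⟨y,y'⟩ x + J_{y''} x` with `y''` in `E4`.
-/

open scoped RealInnerProductSpace Topology
open Module

noncomputable section

set_option linter.unusedSectionVars false

namespace Vale.Agent.P207.H575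

open H747 H747.ACT

variable {V : Type*} [NormedAddCommGroup V] [InnerProductSpace ℝ V] [FiniteDimensional ℝ V]

/-- `J_y x = (1/2) R(v,y) x` -/
def J (S : ACT V) (v y : V) : V →ₗ[ℝ] V := (1 / 2 : ℝ) • S.R v y

variable {S : ACT V} {v x x' y y' z z' u w l : V}

theorem J_apply (S : ACT V) (v y x : V) : J S v y x = (1 / 2 : ℝ) • S.R v y x := rfl

theorem J_add (S : ACT V) (v y y' : V) : J S v (y + y') = J S v y + J S v y' := by
  unfold J; rw [map_add, smul_add]

theorem J_sub (S : ACT V) (v y y' : V) : J S v (y - y') = J S v y - J S v y' := by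
  unfold J; rw [map_sub, smul_sub]

theorem J_neg (S : ACT V) (v y : V) : J S v (-y) = -J S v y := by
  unfold J; rw [map_neg, smul_neg]

theorem J_smul (S : ACT V) (v y : V) (c : ℝ) : J S v (c • y) = c • J S v y := by
  unfold J; rw [map_smul, smul_comm]

theorem J_zero (S : ACT V) (v : V) : J S v 0 = 0 := by
  unfold J; rw [map_zero, smul_zero]

theorem J_skew (S : ACT V) (v y x z : V) : ⟪J S v y x, z⟫ = -⟪x, J S v y z⟫ := by
  rw [J_apply, J_apply, inner_smul_left, inner_smul_right, S.skew]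
  simp

theorem two_J (S : ACT V) (v y x : V) : S.R v y x = (2 : ℝ) • J S v y x := by
  rw [J_apply, smul_smul]; norm_num

/-- sums, differences and multiples of eigenvectors -/
theorem E4_add (hy : S.K v y = (4 : ℝ) • y) (hy' : S.K v y' = (4 : ℝ) • y') :
    S.K v (y + y') = (4 : ℝ) • (y + y') := by rw [map_add, hy, hy', smul_add]

theorem E4_sub (hy : S.K v y = (4 : ℝ) • y) (hy' : S.K v y' = (4 : ℝ) • y') :
    S.K v (y - y') = (4 : ℝ) • (y - y') := by rw [map_sub, hy, hy', smul_sub]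

theorem E4_smul (c : ℝ) (hy : S.K v y = (4 : ℝ) • y) : S.K v (c • y) = (4 : ℝ) • (c • y) := by
  rw [map_smul, hy, smul_comm]

theorem E4_neg (hy : S.K v y = (4 : ℝ) • y) : S.K v (-y) = (4 : ℝ) • (-y) := by
  rw [map_neg, hy, smul_neg]

theorem E1_add (hx : S.K v x = x) (hx' : S.K v x' = x') : S.K v (x + x') = x + x' := by
  rw [map_add, hx, hx']

theorem E1_sub (hx : S.K v x = x) (hx' : S.K v x' = x') : S.K v (x - x') = x - x' := by
  rw [map_sub, hx, hx']

theorem E1_smul (c : ℝ) (hx : S.K v x = x) : S.K v (c • x) = c • x := by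
  rw [map_smul, hx]

/-- `E1` and `E4` are orthogonal -/
theorem orth14 (hx : S.K v x = x) (hy : S.K v y = (4 : ℝ) • y) : ⟪x, y⟫ = 0 := by
  have h3 := S.K_symm v x y
  rw [hx, hy, inner_smul_right] at h3
  linarith

theorem orth1 (hx : S.K v x = x) : ⟪x, v⟫ = 0 := orth_of_eig one_ne_zero (by rw [one_smul]; exact hx)

theorem orth4 (hy : S.K v y = (4 : ℝ) • y) : ⟪y, v⟫ = 0 := orth_of_eig (by norm_num) hy

section Main

variable (h : S.Nrm 2) (hv : ‖v‖ = 1)
include h hv

theorem J_mem (hx : S.K v x = x) (hy : S.K v y = (4 : ℝ) • y) : S.K v (J S v y x) = J S v y x := by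
  rw [J_apply, map_smul, h.K_rho_yx hv hx hy]

theorem J_cliff (hx : S.K v x = x) (hy : S.K v y = (4 : ℝ) • y) (hy' : S.K v y' = (4 : ℝ) • y') :
    J S v y (J S v y' x) + J S v y' (J S v y x) = -(2 * ⟪y, y'⟫) • x := by
  have h1 := h.cliff hv hx hy hy'
  rw [J_apply, J_apply, J_apply, J_apply, map_smul, map_smul, ← smul_add, ← smul_add, h1]
  module

theorem J_sq (hx : S.K v x = x) (hy : S.K v y = (4 : ℝ) • y) :
    J S v y (J S v y x) = -⟪y, y⟫ • x := by
  have h1 := J_cliff h hv hx hy hy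
  have h2 : (2 : ℝ) • J S v y (J S v y x) = (2 : ℝ) • (-⟪y, y⟫ • x) := by
    rw [two_smul, h1]; module
  exact smul_right_injective V (two_ne_zero (α := ℝ)) h2

theorem J_anti (hx : S.K v x = x) (hy : S.K v y = (4 : ℝ) • y) (hy' : S.K v y' = (4 : ℝ) • y')
    (h0 : ⟪y, y'⟫ = 0) : J S v y (J S v y' x) = -J S v y' (J S v y x) := by
  have h1 := J_cliff h hv hx hy hy'
  rw [h0, mul_zero, neg_zero, zero_smul] at h1
  exact eq_neg_of_add_eq_zero_left h1

theorem J_inner (hx : S.K v x = x) (hy : S.K v y = (4 : ℝ) • y) (hy' : S.K v y' = (4 : ℝ) • y') :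
    ⟪J S v y x, J S v y' x⟫ = ⟪y, y'⟫ * ⟪x, x⟫ := by
  have h1 := congrArg (fun t => ⟪x, t⟫) (J_cliff h hv hx hy hy')
  simp only [inner_add_right, inner_smul_right] at h1
  have h2 := J_skew S v y x (J S v y' x)
  have h3 := J_skew S v y' x (J S v y x)
  rw [real_inner_comm (J S v y x) (J S v y' x)] at h3
  linarith

/-- the `E4`-part of `R v x (J_y x)` -/
theorem om_J (hx : S.K v x = x) (hy : S.K v y = (4 : ℝ) • y) :
    om S v x (J S v y x) = -⟪x, x⟫ • y := by
  have hJ := J_mem h hv hx hy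
  have h1 := K_om hv hx hJ
  set d := om S v x (J S v y x) + ⟪x, x⟫ • y with hd
  have hdE : S.K v d = (4 : ℝ) • d := E4_add h1 (E4_smul _ hy)
  have h2 : ⟪om S v x (J S v y x), d⟫ = -(⟪y, d⟫ * ⟪x, x⟫) := by
    rw [h.inner_om hv hx hJ hdE, two_J, inner_smul_right, J_inner h hv hx hy hdE]
    ring
  have h3 : ⟪d, d⟫ = 0 := by
    conv_lhs => rw [hd]
    rw [inner_add_left, h2, inner_smul_left]
    simp only [conj_trivial]
    ring
  have h4 : d = 0 := inner_self_eq_zero.1 h3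
  rw [hd] at h4
  rw [eq_neg_of_add_eq_zero_left h4, neg_smul]

/-- **`J_y x` is in the eigenspace of `4` of `K x`** -/
theorem K_J (hx : S.K v x = x) (hy : S.K v y = (4 : ℝ) • y) :
    S.K x (J S v y x) = (4 * ⟪x, x⟫) • J S v y x := by
  have hJ := J_mem h hv hx hy
  have h1 := om_J h hv hx hy
  have e1 : S.R v x x = -⟪x, x⟫ • v := by
    have h2 : om S v x x = 0 := by unfold om; rw [sub_self, smul_zero]
    rw [rho_xx hv hx hx, h2, add_zero]
  have e2 : S.R v (J S v y x) x = ⟪x, x⟫ • y := by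
    have h3 : ⟪J S v y x, x⟫ = 0 := by
      have h4 := J_skew S v y x x
      rw [real_inner_comm x (J S v y x)] at h4
      rw [real_inner_comm]
      linarith
    rw [rho_xx hv hJ hx, om_anti, h1, h3]
    module
  have e3 : S.R v x y = J S v y x := by rw [h.rho_xy hv hx hy, J_apply]
  have e4 : S.R v (J S v y x) v = J S v y x := hJ
  rw [K_apply, R_xx hv hx hJ x, e1, e2, h1, map_smul, map_smul, map_smul, LinearMap.smul_apply, e3,
    e4, two_J S v y x]
  module

/-- `K x` on the leaf of `v` -/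
theorem K_x_leaf (hx : S.K v x = x) (hy : S.K v y = (4 : ℝ) • y) : S.K x y = ⟪x, x⟫ • y := by
  have hJ := J_mem h hv hx hy
  have h3 : ⟪J S v y x, x⟫ = 0 := by
    have h4 := J_skew S v y x x
    rw [real_inner_comm x (J S v y x)] at h4
    rw [real_inner_comm]
    linarith
  rw [K_apply, h.R_xy' hv hx hy, two_J S v y x, map_smul, LinearMap.smul_apply,
    rho_xx hv hJ hx, om_anti, om_J h hv hx hy, h3]
  module

omit h in
theorem K_x_v (hx : S.K v x = x) : S.K x v = ⟪x, x⟫ • v := by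
  have h2 : om S v x x = 0 := by unfold om; rw [sub_self, smul_zero]
  rw [K_apply, S.anti x v x, rho_xx hv hx hx, h2]
  module

end Main

/-! ### the multiplicity is independent of the point -/

section Dim

variable (S) in
/-- the eigenspace of `4` -/
def E4 (v : V) : Submodule ℝ V := End.eigenspace (S.K v) 4

variable (S) in
/-- the eigenspace of `1` -/
def E1 (v : V) : Submodule ℝ V := End.eigenspace (S.K v) 1

theorem mem_E4 : y ∈ E4 S v ↔ S.K v y = (4 : ℝ) • y := End.mem_eigenspace_iff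

theorem mem_E1 : x ∈ E1 S v ↔ S.K v x = x := by
  rw [E1, End.mem_eigenspace_iff, one_smul]

theorem finrank_E4 (hn : 2 ≤ finrank ℝ V) (hv : ‖v‖ = 1) (hu : ‖u‖ = 1) :
    finrank ℝ (E4 S u) = finrank ℝ (E4 S v) := by
  obtain ⟨A, hA, rfl⟩ := exists_sym (S := S) hn hv hu
  have h1 : E4 S (A v) = (E4 S v).map (A : V →ₗ[ℝ] V) := by
    ext z
    rw [Submodule.mem_map]
    constructor
    · intro hz
      obtain ⟨z, rfl⟩ := hA.surjective z
      rw [mem_E4, hA.K, ← map_smul] at hz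
      exact ⟨z, mem_E4.2 (hA.injective hz), rfl⟩
    · rintro ⟨z', hz', rfl⟩
      rw [mem_E4] at hz' ⊢
      show S.K (A v) (A z') = (4 : ℝ) • A z'
      rw [hA.K, hz', map_smul]
  rw [h1]
  exact (Submodule.equivMapOfInjective (A : V →ₗ[ℝ] V) hA.injective (E4 S v)).finrank_eq.symm

/-- the unit vectors of `E4 x` are the `J_y x` -/
theorem exists_J (hn : 2 ≤ finrank ℝ V) (h : S.Nrm 2) (hv : ‖v‖ = 1) (hx : S.K v x = x)
    (hx1 : ‖x‖ = 1) (hz : S.K x z = (4 : ℝ) • z) : ∃ y, S.K v y = (4 : ℝ) • y ∧ J S v y x = z := by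
  have hxx : ⟪x, x⟫ = 1 := inner_self_one hx1
  let F : E4 S v →ₗ[ℝ] E4 S x :=
    { toFun := fun y => ⟨J S v y x, mem_E4.2 (by
        rw [K_J h hv hx (mem_E4.1 y.2), hxx, mul_one])⟩
      map_add' := fun y y' => by
        ext
        show J S v ((y : V) + y') x = J S v y x + J S v y' x
        rw [J_add, LinearMap.add_apply]
      map_smul' := fun c y => by
        ext
        show J S v (c • (y : V)) x = c • J S v y x
        rw [J_smul, LinearMap.smul_apply] }
  have hinj : Function.Injective F := by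
    rw [injective_iff_map_eq_zero]
    intro y hy
    have h1 : J S v y x = 0 := congrArg Subtype.val hy
    have h2 := J_inner h hv hx (mem_E4.1 y.2) (mem_E4.1 y.2)
    rw [h1, inner_zero_left, hxx, mul_one] at h2
    exact Subtype.ext (inner_self_eq_zero.1 h2.symm)
  have hsurj : Function.Surjective F :=
    (LinearMap.injective_iff_surjective_of_finrank_eq_finrank (finrank_E4 hn hx1 hv)).1 hinj
  obtain ⟨y, hy⟩ := hsurj ⟨z, mem_E4.2 hz⟩
  exact ⟨y, mem_E4.1 y.2, congrArg Subtype.val hy⟩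

/-- **the leaf of `x` is invariant under the maps `J_y`** -/
theorem exists_JJ (hn : 2 ≤ finrank ℝ V) (h : S.Nrm 2) (hv : ‖v‖ = 1) (hx : S.K v x = x)
    (hx1 : ‖x‖ = 1) (hy : S.K v y = (4 : ℝ) • y) (hy' : S.K v y' = (4 : ℝ) • y') :
    ∃ w, S.K v w = (4 : ℝ) • w ∧ J S v y (J S v y' x) = -⟪y, y'⟫ • x + J S v w x := by
  have hxx : ⟪x, x⟫ = 1 := inner_self_one hx1
  by_cases h0 : y' = 0
  · refine ⟨0, by rw [map_zero, smul_zero], ?_⟩
    rw [h0, J_zero]
    simp
  have hr : 0 < ‖y'‖ := norm_pos_iff.2 h0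
  set u := J S v (‖y'‖⁻¹ • y') x with hu
  have hy1 : S.K v (‖y'‖⁻¹ • y') = (4 : ℝ) • (‖y'‖⁻¹ • y') := E4_smul _ hy'
  have huE : S.K v u = u := J_mem h hv hx hy1
  have hu1 : ‖u‖ = 1 := by
    have h1 := J_inner h hv hx hy1 hy1
    rw [hxx, mul_one, real_inner_self_eq_norm_sq, real_inner_self_eq_norm_sq, norm_smul,
      norm_inv, norm_norm, inv_mul_cancel₀ hr.ne', one_pow] at h1
    exact (pow_eq_one_iff_of_nonneg (norm_nonneg _) two_ne_zero).1 h1
  have hux : S.K x u = (4 : ℝ) • u := by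
    rw [hu, K_J h hv hx hy1, hxx, mul_one]
  have hL : Lf S u = Lf S x := h.Lf_eq hx1 (e4_mem_Lf hux) hu1
  have hJu : S.K u (J S v y u) = (4 : ℝ) • J S v y u := by
    rw [K_J h hv huE hy, inner_self_one hu1, mul_one]
  have hmem : J S v y u ∈ Lf S x := by
    rw [← hL]
    exact e4_mem_Lf hJu
  obtain ⟨s, t, ht, hst⟩ := mem_Lf.1 hmem
  obtain ⟨q, hq, hqt⟩ := exists_J hn h hv hx hx1 ht
  have hy'u : J S v y' x = ‖y'‖ • u := by
    rw [hu, J_smul, LinearMap.smul_apply, smul_smul, mul_inv_cancel₀ hr.ne', one_smul]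
  have h2 : J S v y (J S v y' x) = (‖y'‖ * s) • x + J S v (‖y'‖ • q) x := by
    rw [hy'u, map_smul, hst, ← hqt, J_smul, LinearMap.smul_apply, smul_add, smul_smul]
  refine ⟨‖y'‖ • q, E4_smul _ hq, ?_⟩
  have h3 : ‖y'‖ * s = -⟪y, y'⟫ := by
    have h4 : ⟪J S v y (J S v y' x), x⟫ = ⟪(‖y'‖ * s) • x + J S v (‖y'‖ • q) x, x⟫ := by rw [h2]
    rw [inner_add_left, inner_smul_left, hxx, J_skew S v y (J S v y' x) x,
      real_inner_comm, J_inner h hv hx hy hy', hxx, J_skew S v (‖y'‖ • q) x x] at h4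
    have h5 : ⟪x, J S v (‖y'‖ • q) x⟫ = 0 := by
      have h6 := J_skew S v (‖y'‖ • q) x x
      rw [real_inner_comm] at h6
      linarith
    rw [h5] at h4
    simp only [conj_trivial] at h4
    linarith
  rw [h2, h3]

end Dim

end Vale.Agent.P207.H575
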