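import Vale.Agent.P207.H340.QMat

/-!
# P207 / H575: the pointwise inequality for tensors of type (2,0)

`T i j k`, for each `i` symmetric in `j, k` and commuting with `w_1, w_2, w_3`:
`3 |T|² - 12 ∑ T_ijk T_jik` is the square of the norm of a tensor `α` which is linear in `T`.
-/

namespace Vale.Agent.P207.H575

open Matrix Finset Vale.Agent.P207.H340

set_option linter.unusedVariables false

variable {n : ℕ}

/-- arrays with three indices -/
abbrev Arr (n : ℕ) := Fin n → Fin n → Fin n → ℝ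

/-- inner product -/
def ip (x y : Arr n) : ℝ := ∑ i, ∑ j, ∑ k, x i j k * y i j k

theorem ip_comm (x y : Arr n) : ip x y = ip y x := by
  unfold ip
  exact sum_congr rfl fun i _ => sum_congr rfl fun j _ => sum_congr rfl fun k _ => mul_comm _ _

theorem ip_add_left (x y z : Arr n) : ip (x + y) z = ip x z + ip y z := by
  unfold ip
  simp only [Pi.add_apply, add_mul, sum_add_distrib]

theorem ip_sub_left (x y z : Arr n) : ip (x - y) z = ip x z - ip y z := by
  unfold ip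
  simp only [Pi.sub_apply, sub_mul, sum_sub_distrib]

theorem ip_neg_left (x z : Arr n) : ip (-x) z = -ip x z := by
  unfold ip
  simp only [Pi.neg_apply, neg_mul, sum_neg_distrib]

theorem ip_smul_left (c : ℝ) (x z : Arr n) : ip (c • x) z = c * ip x z := by
  unfold ip
  simp only [Pi.smul_apply, smul_eq_mul, mul_assoc, mul_sum]

theorem ip_add_right (x y z : Arr n) : ip x (y + z) = ip x y + ip x z := by
  rw [ip_comm, ip_add_left, ip_comm y, ip_comm z]

theorem ip_sub_right (x y z : Arr n) : ip x (y - z) = ip x y - ip x z := by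
  rw [ip_comm, ip_sub_left, ip_comm y, ip_comm z]

theorem ip_neg_right (x z : Arr n) : ip x (-z) = -ip x z := by
  rw [ip_comm, ip_neg_left, ip_comm]

theorem ip_smul_right (c : ℝ) (x z : Arr n) : ip x (c • z) = c * ip x z := by
  rw [ip_comm, ip_smul_left, ip_comm]

/-- action on the first index -/
def A1 (u : Matrix (Fin n) (Fin n) ℝ) (x : Arr n) : Arr n := fun i j k => ∑ a, u i a * x a j k

/-- action on the second index -/
def A2 (u : Matrix (Fin n) (Fin n) ℝ) (x : Arr n) : Arr n := fun i j k => ∑ b, u j b * x i b k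

/-- action on the third index -/
def A3 (u : Matrix (Fin n) (Fin n) ℝ) (x : Arr n) : Arr n := fun i j k => ∑ c, u k c * x i j c

/-- permutations of the indices -/
def t12 (x : Arr n) : Arr n := fun i j k => x j i k

def t13 (x : Arr n) : Arr n := fun i j k => x k j i

def t23 (x : Arr n) : Arr n := fun i j k => x i k j

variable {u v : Matrix (Fin n) (Fin n) ℝ} {x y : Arr n}

theorem A1_add (u : Matrix (Fin n) (Fin n) ℝ) (x y : Arr n) : A1 u (x + y) = A1 u x + A1 u y := by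
  funext i j k
  simp only [A1, Pi.add_apply, mul_add, sum_add_distrib]

theorem A2_add (u : Matrix (Fin n) (Fin n) ℝ) (x y : Arr n) : A2 u (x + y) = A2 u x + A2 u y := by
  funext i j k
  simp only [A2, Pi.add_apply, mul_add, sum_add_distrib]

theorem A1_neg (u : Matrix (Fin n) (Fin n) ℝ) (x : Arr n) : A1 u (-x) = -A1 u x := by
  funext i j k
  simp only [A1, Pi.neg_apply, mul_neg, sum_neg_distrib]

theorem A2_neg (u : Matrix (Fin n) (Fin n) ℝ) (x : Arr n) : A2 u (-x) = -A2 u x := by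
  funext i j k
  simp only [A2, Pi.neg_apply, mul_neg, sum_neg_distrib]

theorem A3_neg (u : Matrix (Fin n) (Fin n) ℝ) (x : Arr n) : A3 u (-x) = -A3 u x := by
  funext i j k
  simp only [A3, Pi.neg_apply, mul_neg, sum_neg_distrib]

theorem A1_neg' (u : Matrix (Fin n) (Fin n) ℝ) (x : Arr n) : A1 (-u) x = -A1 u x := by
  funext i j k
  simp only [A1, Pi.neg_apply, Matrix.neg_apply, neg_mul, sum_neg_distrib]

theorem A2_neg' (u : Matrix (Fin n) (Fin n) ℝ) (x : Arr n) : A2 (-u) x = -A2 u x := by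
  funext i j k
  simp only [A2, Pi.neg_apply, Matrix.neg_apply, neg_mul, sum_neg_distrib]

theorem A1_one (x : Arr n) : A1 1 x = x := by
  funext i j k
  simp only [A1, Matrix.one_apply, ite_mul, one_mul, zero_mul, sum_ite_eq, mem_univ, if_true]

theorem A2_one (x : Arr n) : A2 1 x = x := by
  funext i j k
  simp only [A2, Matrix.one_apply, ite_mul, one_mul, zero_mul, sum_ite_eq, mem_univ, if_true]

theorem A1_mul (u v : Matrix (Fin n) (Fin n) ℝ) (x : Arr n) : A1 u (A1 v x) = A1 (u * v) x := by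
  funext i j k
  simp only [A1, Matrix.mul_apply, mul_sum, sum_mul]
  rw [sum_comm]
  exact sum_congr rfl fun a _ => sum_congr rfl fun b _ => by ring

theorem A2_mul (u v : Matrix (Fin n) (Fin n) ℝ) (x : Arr n) : A2 u (A2 v x) = A2 (u * v) x := by
  funext i j k
  simp only [A2, Matrix.mul_apply, mul_sum, sum_mul]
  rw [sum_comm]
  exact sum_congr rfl fun a _ => sum_congr rfl fun b _ => by ring

theorem A12 (u v : Matrix (Fin n) (Fin n) ℝ) (x : Arr n) : A1 u (A2 v x) = A2 v (A1 u x) := by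
  funext i j k
  simp only [A1, A2, mul_sum]
  rw [sum_comm]
  exact sum_congr rfl fun a _ => sum_congr rfl fun b _ => by ring

theorem A13 (u v : Matrix (Fin n) (Fin n) ℝ) (x : Arr n) : A1 u (A3 v x) = A3 v (A1 u x) := by
  funext i j k
  simp only [A1, A3, mul_sum]
  rw [sum_comm]
  exact sum_congr rfl fun a _ => sum_congr rfl fun b _ => by ring

theorem ip_A1 (hu : ∀ i j, u j i = -u i j) (x y : Arr n) : ip (A1 u x) y = -ip x (A1 u y) := by
  unfold ip A1
  simp only [sum_mul, mul_sum, ← sum_neg_distrib]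
  have e1 : ∀ F : Fin n → Fin n → Fin n → Fin n → ℝ,
      ∑ i, ∑ j, ∑ k, ∑ a, F i j k a = ∑ a, ∑ j, ∑ k, ∑ i, F i j k a := by
    intro F
    calc ∑ i, ∑ j, ∑ k, ∑ a, F i j k a = ∑ i, ∑ j, ∑ a, ∑ k, F i j k a :=
          sum_congr rfl fun i _ => sum_congr rfl fun j _ => sum_comm
      _ = ∑ i, ∑ a, ∑ j, ∑ k, F i j k a := sum_congr rfl fun i _ => sum_comm
      _ = ∑ a, ∑ i, ∑ j, ∑ k, F i j k a := sum_comm
      _ = ∑ a, ∑ j, ∑ i, ∑ k, F i j k a := sum_congr rfl fun a _ => sum_comm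
      _ = _ := sum_congr rfl fun a _ => sum_congr rfl fun j _ => sum_comm
  rw [e1]
  refine sum_congr rfl fun a _ => sum_congr rfl fun j _ => sum_congr rfl fun k _ =>
    sum_congr rfl fun i _ => ?_
  rw [hu a i]
  ring

theorem ip_t12 (x y : Arr n) : ip (t12 x) (t12 y) = ip x y := by
  unfold ip t12
  exact sum_comm

theorem ip_t23 (x y : Arr n) : ip (t23 x) (t23 y) = ip x y := by
  unfold ip t23
  exact sum_congr rfl fun i _ => sum_comm

theorem t12_t12 (x : Arr n) : t12 (t12 x) = x := rfl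

theorem t23_t23 (x : Arr n) : t23 (t23 x) = x := rfl

theorem t12_A1 (u : Matrix (Fin n) (Fin n) ℝ) (x : Arr n) : t12 (A1 u x) = A2 u (t12 x) := rfl

theorem t12_A2 (u : Matrix (Fin n) (Fin n) ℝ) (x : Arr n) : t12 (A2 u x) = A1 u (t12 x) := rfl

theorem t12_A3 (u : Matrix (Fin n) (Fin n) ℝ) (x : Arr n) : t12 (A3 u x) = A3 u (t12 x) := rfl

theorem t23_A1 (u : Matrix (Fin n) (Fin n) ℝ) (x : Arr n) : t23 (A1 u x) = A1 u (t23 x) := rfl

theorem t23_A2 (u : Matrix (Fin n) (Fin n) ℝ) (x : Arr n) : t23 (A2 u x) = A3 u (t23 x) := rfl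

theorem t12_add (x y : Arr n) : t12 (x + y) = t12 x + t12 y := rfl

theorem t12_sub (x y : Arr n) : t12 (x - y) = t12 x - t12 y := rfl

theorem t12_neg (x : Arr n) : t12 (-x) = -t12 x := rfl

theorem t23_add (x y : Arr n) : t23 (x + y) = t23 x + t23 y := rfl

theorem t23_neg (x : Arr n) : t23 (-x) = -t23 x := rfl

theorem ip_A2 (hu : ∀ i j, u j i = -u i j) (x y : Arr n) : ip (A2 u x) y = -ip x (A2 u y) := by
  rw [← ip_t12, t12_A2, ip_A1 hu, ← t12_A2 u y, ip_t12]

theorem ip_A3 (hu : ∀ i j, u j i = -u i j) (x y : Arr n) : ip (A3 u x) y = -ip x (A3 u y) := by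
  have h1 : A3 u x = t23 (A2 u (t23 x)) := rfl
  have h2 : A3 u y = t23 (A2 u (t23 y)) := rfl
  rw [h1, h2, ← ip_t23, t23_t23, ip_A2 hu, ← ip_t23 x, t23_t23]

/-! ### the operator `W = ∑ w_s ⊗ w_s` -/

variable {w : Fin 3 → Matrix (Fin n) (Fin n) ℝ}

/-- `w_s` on the first and the second index -/
def Pw (w : Fin 3 → Matrix (Fin n) (Fin n) ℝ) (s : Fin 3) (x : Arr n) : Arr n :=
  A1 (w s) (A2 (w s) x)

def Ww (w : Fin 3 → Matrix (Fin n) (Fin n) ℝ) (x : Arr n) : Arr n :=
  Pw w 0 x + Pw w 1 x + Pw w 2 x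

theorem ip_Pw (hw : Qt w) (s : Fin 3) (x y : Arr n) : ip (Pw w s x) y = ip x (Pw w s y) := by
  unfold Pw
  rw [ip_A1 (hw.skew s), ip_A2 (hw.skew s), neg_neg, A12]

theorem ip_Ww (hw : Qt w) (x y : Arr n) : ip (Ww w x) y = ip x (Ww w y) := by
  unfold Ww
  simp only [ip_add_left, ip_add_right, ip_Pw hw]

theorem Pw_add (s : Fin 3) (x y : Arr n) : Pw w s (x + y) = Pw w s x + Pw w s y := by
  unfold Pw
  rw [A2_add, A1_add]

theorem Pw_Pw (s t : Fin 3) (x : Arr n) : Pw w s (Pw w t x) =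
    A1 (w s * w t) (A2 (w s * w t) x) := by
  unfold Pw
  rw [← A12 (w t) (w s), A1_mul, A2_mul]

theorem Pw_sq (hw : Qt w) (s : Fin 3) (x : Arr n) : Pw w s (Pw w s x) = x := by
  rw [Pw_Pw, hw.sq, A1_neg', A2_neg', A1_neg, neg_neg, A2_one, A1_one]

theorem A1A2_neg (u : Matrix (Fin n) (Fin n) ℝ) (x : Arr n) :
    A1 (-u) (A2 (-u) x) = A1 u (A2 u x) := by
  rw [A1_neg', A2_neg', A1_neg, neg_neg]

theorem A1A2_smul {ε : ℝ} (hε : ε * ε = 1) (u : Matrix (Fin n) (Fin n) ℝ) (x : Arr n) :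
    A1 (ε • u) (A2 (ε • u) x) = A1 u (A2 u x) := by
  rcases mul_self_eq_one_iff.1 hε with h | h
  · rw [h, one_smul]
  · rw [h, neg_one_smul, A1A2_neg]

/-- `w_0 w_1`, `w_0 w_2`, `w_2 w_1` are multiples of the third one -/
theorem Pw_01 {ε : ℝ} (hw : Qt w) (hq : Quat w ε) (x : Arr n) : Pw w 0 (Pw w 1 x) = Pw w 2 x := by
  rw [Pw_Pw, hq.2, A1A2_smul hq.1]; rfl

theorem Pw_10 {ε : ℝ} (hw : Qt w) (hq : Quat w ε) (x : Arr n) : Pw w 1 (Pw w 0 x) = Pw w 2 x := by
  rw [Pw_Pw, hw.anti 1 0 (by decide), hq.2, A1A2_neg, A1A2_smul hq.1]; rfl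

theorem neg_sq_one {ε : ℝ} (h : ε * ε = 1) : (-ε) * (-ε) = 1 := by rw [neg_mul_neg, h]

theorem Pw_02 {ε : ℝ} (hw : Qt w) (hq : Quat w ε) (x : Arr n) : Pw w 0 (Pw w 2 x) = Pw w 1 x := by
  rw [Pw_Pw, Quat.m02 hw hq, A1A2_smul (neg_sq_one hq.1)]; rfl

theorem Pw_20 {ε : ℝ} (hw : Qt w) (hq : Quat w ε) (x : Arr n) : Pw w 2 (Pw w 0 x) = Pw w 1 x := by
  rw [Pw_Pw, hw.anti 2 0 (by decide), Quat.m02 hw hq, A1A2_neg, A1A2_smul (neg_sq_one hq.1)]; rfl

theorem Pw_21 {ε : ℝ} (hw : Qt w) (hq : Quat w ε) (x : Arr n) : Pw w 2 (Pw w 1 x) = Pw w 0 x := by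
  rw [Pw_Pw, Quat.m21 hw hq, A1A2_smul (neg_sq_one hq.1)]; rfl

theorem Pw_12 {ε : ℝ} (hw : Qt w) (hq : Quat w ε) (x : Arr n) : Pw w 1 (Pw w 2 x) = Pw w 0 x := by
  rw [Pw_Pw, hw.anti 1 2 (by decide), Quat.m21 hw hq, A1A2_neg, A1A2_smul (neg_sq_one hq.1)]; rfl

theorem Ww_Ww {ε : ℝ} (hw : Qt w) (hq : Quat w ε) (x : Arr n) :
    Ww w (Ww w x) = (3 : ℝ) • x + (2 : ℝ) • Ww w x := by
  unfold Ww
  simp only [Pw_add, Pw_sq hw, Pw_01 hw hq, Pw_10 hw hq, Pw_02 hw hq, Pw_20 hw hq, Pw_21 hw hq,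
    Pw_12 hw hq]
  module

/-! ### the identity -/

/-- symmetric in the last two indices and commuting with `w` there -/
structure S20 (w : Fin 3 → Matrix (Fin n) (Fin n) ℝ) (T : Arr n) : Prop where
  sym : t23 T = T
  com : ∀ s, A3 (w s) T = -A2 (w s) T

variable {T : Arr n}

theorem S20.t23_Pw (h : S20 w T) (s : Fin 3) : t23 (Pw w s T) = -Pw w s T := by
  unfold Pw
  rw [t23_A1, t23_A2, h.sym, h.com, A1_neg]

theorem S20.t23_Ww (h : S20 w T) : t23 (Ww w T) = -Ww w T := by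
  unfold Ww
  rw [t23_add, t23_add, h.t23_Pw, h.t23_Pw, h.t23_Pw]
  module

theorem S20.ip_Ww_T (hw : Qt w) (h : S20 w T) : ip (Ww w T) T = 0 := by
  have h1 := ip_t23 (Ww w T) T
  rw [h.t23_Ww, h.sym, ip_neg_left] at h1
  linarith

theorem S20.ip_Pw_t12 (hw : Qt w) (h : S20 w T) (s : Fin 3) :
    ip (Pw w s T) (t12 T) = -ip T (t12 T) := by
  have h1 : A2 (w s) T = -A3 (w s) T := by rw [h.com, neg_neg]
  have h2 : Pw w s T = -A3 (w s) (A1 (w s) T) := by
    unfold Pw
    rw [h1, A1_neg, A13]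
  rw [h2, ip_neg_left, ip_A3 (hw.skew s), neg_neg, ← t12_A3, h.com, t12_neg, t12_A2, ip_neg_right,
    ip_A1 (hw.skew s), A1_mul, hw.sq, A1_neg', A1_one, ip_neg_right]
  ring

theorem S20.ip_Ww_t12 (hw : Qt w) (h : S20 w T) : ip (Ww w T) (t12 T) = -3 * ip T (t12 T) := by
  unfold Ww
  rw [ip_add_left, ip_add_left, h.ip_Pw_t12 hw, h.ip_Pw_t12 hw, h.ip_Pw_t12 hw]
  ring

theorem t12_Pw (s : Fin 3) (x : Arr n) : t12 (Pw w s x) = Pw w s (t12 x) := by
  unfold Pw
  rw [t12_A1, t12_A2, A12]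

theorem t12_Ww (x : Arr n) : t12 (Ww w x) = Ww w (t12 x) := by
  unfold Ww
  rw [t12_add, t12_add, t12_Pw, t12_Pw, t12_Pw]

/-- three times the antisymmetrisation -/
noncomputable def al (w : Fin 3 → Matrix (Fin n) (Fin n) ℝ) (T : Arr n) : Arr n :=
  T - (1 / 2 : ℝ) • t12 (T - Ww w T) - (1 / 2 : ℝ) • t13 (T + Ww w T)

/-- **the identity** -/
theorem S20.al_sq {ε : ℝ} (hw : Qt w) (hq : Quat w ε) (h : S20 w T) :
    ip (al w T) (al w T) = 3 * ip T T - 12 * ip T (t12 T) := by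
  set p := ip T (t12 T) with hp
  have hWt := h.ip_Ww_t12 hw
  have hWT := h.ip_Ww_T hw
  have hWW : ip (Ww w T) (Ww w T) = 3 * ip T T := by
    rw [ip_Ww hw, Ww_Ww hw hq, ip_add_right, ip_smul_right, ip_smul_right, ip_comm T (Ww w T), hWT]
    ring
  have hu : ip (T - Ww w T) (T - Ww w T) = 4 * ip T T := by
    rw [ip_sub_left, ip_sub_right, ip_sub_right, ip_comm T (Ww w T), hWT, hWW]
    ring
  have hv : ip (T + Ww w T) (T + Ww w T) = 4 * ip T T := by
    rw [ip_add_left, ip_add_right, ip_add_right, ip_comm T (Ww w T), hWT, hWW]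
    ring
  have t13_eq : t13 (T + Ww w T) = t23 (t12 (T - Ww w T)) := by
    have h1 : T + Ww w T = t23 (T - Ww w T) := by
      have h2 : t23 (T - Ww w T) = t23 T - t23 (Ww w T) := rfl
      rw [h2, h.sym, h.t23_Ww, sub_neg_eq_add]
    rw [h1]
    rfl
  have t13_eq' : t13 (T + Ww w T) = t12 (t23 (t12 (T + Ww w T))) := rfl
  have hTu : ip T (t12 (T - Ww w T)) = 4 * p := by
    rw [t12_sub, ip_sub_right, ← ip_t12 T (t12 (Ww w T)), t12_t12, ip_comm (t12 T) (Ww w T), hWt,
      ← hp]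
    ring
  have hTv : ip T (t13 (T + Ww w T)) = 4 * p := by
    rw [t13_eq, ← ip_t23, t23_t23, h.sym, hTu]
  have huv : ip (t12 (T - Ww w T)) (t13 (T + Ww w T)) = -8 * p := by
    have h3 : t23 (T - Ww w T) = T + Ww w T := by
      have h2 : t23 (T - Ww w T) = t23 T - t23 (Ww w T) := rfl
      rw [h2, h.sym, h.t23_Ww, sub_neg_eq_add]
    rw [t13_eq', ip_t12, ← ip_t23, t23_t23, h3, t12_add, t12_Ww, ip_add_left, ip_add_right,
      ip_add_right, ip_Ww hw T (Ww w (t12 T)), Ww_Ww hw hq, ← ip_Ww hw T (t12 T), hWt,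
      ip_add_right, ip_smul_right, ip_smul_right, ← ip_Ww hw T (t12 T), hWt, ← hp]
    ring
  have hv' : ip (t13 (T + Ww w T)) (t13 (T + Ww w T)) = 4 * ip T T := by
    rw [t13_eq', ip_t12, ip_t23, ip_t12, hv]
  have hu' : ip (t12 (T - Ww w T)) (t12 (T - Ww w T)) = 4 * ip T T := by rw [ip_t12, hu]
  unfold al
  simp only [ip_sub_left, ip_sub_right, ip_smul_left, ip_smul_right, hTu, hTv, huv, hv', hu',
    ip_comm (t12 (T - Ww w T)) T, ip_comm (t13 (T + Ww w T)) T,
    ip_comm (t13 (T + Ww w T)) (t12 (T - Ww w T))]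
  ring

/-! ### the commutation from the type -/

/-- a symmetric matrix with `∑ w X w = -3 X` commutes with each `w_s` -/
theorem comm_of_sum (hw : Qt w) {X : Matrix (Fin n) (Fin n) ℝ} (hX : X.transpose = X)
    (h : ∑ s, w s * X * w s = -(3 : ℝ) • X) (s : Fin 3) : X * w s = w s * X := by
  have hwt : ∀ s, (w s).transpose = -w s := hw.tr
  -- the norm of `w X w + X`
  have h1 : ∀ s, Matrix.trace ((w s * X * w s + X).transpose * (w s * X * w s + X)) =
      2 * Matrix.trace (X * X) + 2 * Matrix.trace (X * (w s * X * w s)) := by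
    intro s
    have e1 : (w s * X * w s + X).transpose = w s * X * w s + X := by
      rw [Matrix.transpose_add, Matrix.transpose_mul, Matrix.transpose_mul, hwt, hX]
      simp only [Matrix.neg_mul, Matrix.mul_neg, neg_neg, Matrix.mul_assoc]
    have e2 : Matrix.trace (w s * X * w s * (w s * X * w s)) = Matrix.trace (X * X) := by
      have e3 : w s * X * w s * (w s * X * w s) = -(w s * (X * X) * w s) := by
        calc w s * X * w s * (w s * X * w s) = w s * X * (w s * w s) * X * w s := by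
              simp only [Matrix.mul_assoc]
          _ = -(w s * (X * X) * w s) := by
              rw [hw.sq]
              simp only [Matrix.mul_neg, Matrix.mul_one, Matrix.neg_mul, Matrix.mul_assoc]
      rw [e3, Matrix.trace_neg, Matrix.trace_mul_comm, ← Matrix.mul_assoc, hw.sq]
      simp
    rw [e1, Matrix.add_mul, Matrix.mul_add, Matrix.mul_add, Matrix.trace_add, Matrix.trace_add,
      Matrix.trace_add, e2, Matrix.trace_mul_comm (w s * X * w s) X]
    ring
  have h2 : ∑ s, Matrix.trace ((w s * X * w s + X).transpose * (w s * X * w s + X)) = 0 := by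
    simp only [h1, sum_add_distrib]
    have e1 : ∑ s, 2 * Matrix.trace (X * (w s * X * w s)) = 2 * Matrix.trace (X * ∑ s, w s * X * w s) := by
      rw [← mul_sum, Matrix.mul_sum, Matrix.trace_sum]
    rw [e1, h, Matrix.mul_smul, Matrix.trace_smul]
    simp
    ring
  have h3 : ∀ s, Matrix.trace ((w s * X * w s + X).transpose * (w s * X * w s + X)) = 0 := by
    have hnn : ∀ s ∈ (univ : Finset (Fin 3)),
        0 ≤ Matrix.trace ((w s * X * w s + X).transpose * (w s * X * w s + X)) := by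
      intro s _
      rw [← sum_mul_eq]
      exact sum_nonneg fun i _ => sum_nonneg fun j _ => mul_self_nonneg _
    intro s
    exact (sum_eq_zero_iff_of_nonneg hnn).1 h2 s (mem_univ s)
  have h4 : w s * X * w s + X = 0 := by
    have h5 := h3 s
    rw [← sum_mul_eq] at h5
    ext i j
    have h6 := (sum_eq_zero_iff_of_nonneg (fun i _ => sum_nonneg fun j _ =>
      mul_self_nonneg ((w s * X * w s + X) i j))).1 h5 i (mem_univ i)
    have h7 := (sum_eq_zero_iff_of_nonneg (fun j _ =>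
      mul_self_nonneg ((w s * X * w s + X) i j))).1 h6 j (mem_univ j)
    exact mul_self_eq_zero.1 h7
  have h5 : w s * (w s * X * w s + X) = 0 := by rw [h4, Matrix.mul_zero]
  rw [Matrix.mul_add, Matrix.mul_assoc (w s) X, ← Matrix.mul_assoc (w s) (w s), hw.sq,
    Matrix.neg_mul, Matrix.one_mul] at h5
  exact (neg_add_eq_zero.1 h5)

/-- the type `(2,0)` in terms of the curvature -/
theorem sum_of_ro {R : Fin n → Fin n → Fin n → Fin n → ℝ} (hw : Qt w) (hR : IsQR w R)
    {X : Matrix (Fin n) (Fin n) ℝ} (hs : ∀ i j, X j i = X i j) (ht : ∑ i, X i i = 0)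
    (hro : ∀ i k, ∑ p, ∑ c, R i p k c * X p c = 8 * X i k) :
    ∑ s, w s * X * w s = -(3 : ℝ) • X := by
  have hT : X.transpose = X := by
    ext i j
    rw [Matrix.transpose_apply, hs]
  have htr : Matrix.trace X = 0 := ht
  have h0 : ∀ a : Fin 3, ∑ p, ∑ q, w a p q * X p q = 0 := by
    intro a
    rw [sum_mul_eq, hw.tr]
    refine trace_skew_symm ?_ hT
    rw [Matrix.transpose_neg, hw.tr]
  ext i k
  have h1 := RX hR X i k
  have h2 : ∑ p, ∑ c, R i p c k * X p c = -(8 * X i k) := by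
    have h3 : ∀ p c, R i p c k * X p c = -(R i p k c * X p c) := by
      intro p c
      rw [R_skew hw hR i p k c]
      ring
    simp only [h3, sum_neg_distrib, hro]
  rw [h2, hT, htr] at h1
  simp only [h0, zero_mul, sum_const_zero, sub_zero, neg_zero, zero_add] at h1
  rw [Matrix.sum_apply, Matrix.smul_apply, smul_eq_mul]
  rw [hs i k] at h1
  linarith

end Vale.Agent.P207.H575
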