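import Vale.Agent.P207.H575.Cls

/-!
# P207 / H575: the quaternionic structure

If `dim E4 = 3` there are `I_1, I_2, I_3` on `V` with the quaternion relations, and the curvature
tensor is the one of the quaternionic hyperbolic space.
-/

open scoped RealInnerProductSpace Topology
open Module

noncomputable section

set_option linter.unusedSectionVars false
set_option linter.unusedVariables false

namespace Vale.Agent.P207.H575

open H747 H747.ACT

variable {V : Type*} [NormedAddCommGroup V] [InnerProductSpace ℝ V] [FiniteDimensional ℝ V]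

variable {S : ACT V} {v x x' y y' z z' u l a b c x₀ : V}

/-- a triple which works for all `x` in `E1` -/
structure QTri (S : ACT V) (v a b c : V) : Prop where
  ha : S.K v a = (4 : ℝ) • a
  hb : S.K v b = (4 : ℝ) • b
  hc : S.K v c = (4 : ℝ) • c
  aa : ⟪a, a⟫ = 1
  bb : ⟪b, b⟫ = 1
  cc : ⟪c, c⟫ = 1
  ab : ⟪a, b⟫ = 0
  ac : ⟪a, c⟫ = 0
  bc : ⟪b, c⟫ = 0
  jab : ∀ x, S.K v x = x → J S v a (J S v b x) = J S v c x
  jbc : ∀ x, S.K v x = x → J S v b (J S v c x) = J S v a x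
  jca : ∀ x, S.K v x = x → J S v c (J S v a x) = J S v b x

theorem QTri.rot (T : QTri S v a b c) : QTri S v b c a :=
  ⟨T.hb, T.hc, T.ha, T.bb, T.cc, T.aa, T.bc, by rw [real_inner_comm]; exact T.ab,
    by rw [real_inner_comm]; exact T.ac, T.jbc, T.jca, T.jab⟩

/-- an orthonormal family of the right cardinality spans -/
theorem sum_of_card {ι : Type*} [Fintype ι] {E : Submodule ℝ V} {u : ι → V}
    (hu : Orthonormal ℝ u) (hE : ∀ i, u i ∈ E) (hc : finrank ℝ E = Fintype.card ι) (hz : z ∈ E) :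
    z = ∑ i, ⟪u i, z⟫ • u i := by
  classical
  have h1 : Submodule.span ℝ (Set.range u) = E := by
    refine Submodule.eq_of_le_of_finrank_eq ?_ ?_
    · rw [Submodule.span_le]
      rintro _ ⟨i, rfl⟩
      exact hE i
    · rw [finrank_span_eq_card hu.linearIndependent, hc]
  rw [← h1, Submodule.mem_span_range_iff_exists_fun] at hz
  obtain ⟨c, rfl⟩ := hz
  refine Finset.sum_congr rfl fun i _ => ?_
  congr 1
  rw [inner_sum]
  simp only [inner_smul_right, orthonormal_iff_ite.1 hu]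
  simp

theorem span3 (hd : finrank ℝ (E4 S v) = 3) (ha : S.K v a = (4 : ℝ) • a)
    (hb : S.K v b = (4 : ℝ) • b) (hc : S.K v c = (4 : ℝ) • c) (aa : ⟪a, a⟫ = 1) (bb : ⟪b, b⟫ = 1)
    (cc : ⟪c, c⟫ = 1) (ab : ⟪a, b⟫ = 0) (ac : ⟪a, c⟫ = 0) (bc : ⟪b, c⟫ = 0)
    (hz : S.K v z = (4 : ℝ) • z) : z = ⟪a, z⟫ • a + ⟪b, z⟫ • b + ⟪c, z⟫ • c := by
  have h1 := sum_of_card (E := E4 S v) (orthonormal_three aa bb cc ab ac bc)
    (fun i => by fin_cases i; exacts [mem_E4.2 ha, mem_E4.2 hb, mem_E4.2 hc]) (by simpa using hd)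
    (mem_E4.2 hz)
  simpa [Fin.sum_univ_three] using h1

/-- **the sign is constant** -/
theorem exists_qtri (hn : 2 ≤ finrank ℝ V) (h : S.Nrm 2) (hv : ‖v‖ = 1) (hx₀ : S.K v x₀ = x₀)
    (hx1 : ‖x₀‖ = 1) (hd : finrank ℝ (E4 S v) = 3) : ∃ a b c, QTri S v a b c := by
  have h2 : ∃ a b c, Tri S v x₀ a b c := by
    rcases three_or hn h hv hx₀ hx1 (by omega) with ⟨-, h3⟩ | ⟨a, b, c, l, T⟩
    · exact h3
    · exact ⟨a, b, c, T.toTri⟩
  obtain ⟨a, b, c, T⟩ := h2
  have hx0 : x₀ ≠ 0 := by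
    intro h1
    rw [h1, norm_zero] at hx1
    exact zero_ne_one hx1
  have inj : ∀ {y x : V}, S.K v x = x → S.K v y = (4 : ℝ) • y → ⟪y, y⟫ = 1 → J S v y x = 0 →
      x = 0 := by
    intro y x hx hy yy h0
    have h5 := J_inner h hv hx hy hy
    rw [h0, inner_zero_left, yy, one_mul] at h5
    exact inner_self_eq_zero.1 h5.symm
  have pm : ∀ x, S.K v x = x → J S v a (J S v b x) = J S v c x ∨
      J S v a (J S v b x) = -J S v c x := by
    intro x hx
    by_cases h0 : x = 0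
    · left; rw [h0]; simp
    have hx' : S.K v (‖x‖⁻¹ • x) = ‖x‖⁻¹ • x := E1_smul _ hx
    have hx1' : ‖(‖x‖⁻¹ • x)‖ = 1 := nrm_one (exists_unit h0)
    obtain ⟨w, hw, hw2⟩ := exists_prod hn h hv hx' T.ha T.hb T.ab
    obtain ⟨h1, h2, h3, -, -⟩ := tri h hv hx' T.ha T.hb hw T.aa T.bb T.ab hx1' hw2
    have h4 := span3 hd T.ha T.hb T.hc T.aa T.bb T.cc T.ab T.ac T.bc hw
    rw [h2, h3, zero_smul, zero_smul, zero_add, zero_add] at h4
    have h5 : ⟪c, w⟫ * ⟪c, w⟫ = 1 := by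
      rw [h4, inner_smul_left, inner_smul_right, T.cc] at h1
      simpa using h1
    have h6 : x = ‖x‖ • (‖x‖⁻¹ • x) := by
      rw [smul_smul, mul_inv_cancel₀ (norm_pos_iff.2 h0).ne', one_smul]
    rcases mul_self_eq_one_iff.1 h5 with h7 | h7
    · left
      rw [h7, one_smul] at h4
      rw [h4] at hw2
      rw [h6]
      simp only [map_smul] at hw2 ⊢
      rw [hw2]
    · right
      rw [h7, neg_one_smul] at h4
      rw [h4, J_neg, LinearMap.neg_apply] at hw2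
      rw [h6]
      simp only [map_smul] at hw2 ⊢
      rw [hw2, smul_neg]
  have jab : ∀ x, S.K v x = x → J S v a (J S v b x) = J S v c x := by
    intro x hx
    rcases pm x hx with h1 | h1
    · exact h1
    have h0 : x = 0 := by
      rcases pm (x₀ + x) (E1_add hx₀ hx) with h2 | h2
      · simp only [map_add, T.jab, h1] at h2
        have h3 : (2 : ℝ) • J S v c x = 0 := by
          have h4 : (2 : ℝ) • J S v c x = (J S v c x₀ + J S v c x) - (J S v c x₀ + -J S v c x) := by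
            module
          rw [h4, h2, sub_self]
        exact inj hx T.hc T.cc ((smul_eq_zero.1 h3).resolve_left two_ne_zero)
      · simp only [map_add, T.jab, h1] at h2
        have h3 : (2 : ℝ) • J S v c x₀ = 0 := by
          have h4 : (2 : ℝ) • J S v c x₀ =
              (J S v c x₀ + -J S v c x) - -(J S v c x₀ + J S v c x) := by module
          rw [h4, h2, sub_self]
        exact absurd (inj hx₀ T.hc T.cc ((smul_eq_zero.1 h3).resolve_left two_ne_zero)) hx0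
    rw [h0]; simp
  have ba : ⟪b, a⟫ = 0 := by rw [real_inner_comm]; exact T.ab
  have ca : ⟪c, a⟫ = 0 := by rw [real_inner_comm]; exact T.ac
  refine ⟨a, b, c, T.ha, T.hb, T.hc, T.aa, T.bb, T.cc, T.ab, T.ac, T.bc, jab, ?_, ?_⟩
  · intro x hx
    have hbx := J_mem h hv hx T.hb
    rw [← jab x hx, J_anti h hv hbx T.hb T.ha ba, J_sq h hv hx T.hb, T.bb, map_smul]
    module
  · intro x hx
    have hbx := J_mem h hv hx T.hb
    rw [J_anti h hv hx T.hc T.ha ca, ← jab x hx, J_sq h hv hbx T.ha, T.aa]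
    module

/-! ### the maps `I` -/

/-- `(1/4) (R(v,a) + R(b,c))` -/
def W (S : ACT V) (v a b c : V) : V →ₗ[ℝ] V := (1 / 4 : ℝ) • (S.R v a + S.R b c)

theorem W_apply (S : ACT V) (v a b c z : V) :
    W S v a b c z = (1 / 4 : ℝ) • (S.R v a z + S.R b c z) := rfl

theorem W_skew (S : ACT V) (v a b c z z' : V) : ⟪W S v a b c z, z'⟫ = -⟪z, W S v a b c z'⟫ := by
  rw [W_apply, W_apply, inner_smul_left, inner_smul_right, inner_add_left, inner_add_right,
    S.skew, S.skew b c]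
  simp only [conj_trivial]
  ring

section WW

variable (h : S.Nrm 2) (hv : ‖v‖ = 1) (T : QTri S v a b c)
include h hv T

theorem QTri.Wv : W S v a b c v = a := by
  have hv1 := inner_self_one hv
  have h1 : S.R b c v = 0 := by
    rw [h.leaf_const hv (e4_mem_Lf T.hb) (e4_mem_Lf T.hc) self_mem_Lf, orth4 T.hb, orth4 T.hc]
    simp
  have h2 : S.R v a v = (4 : ℝ) • a := T.ha
  rw [W_apply, h1, h2]
  module

theorem QTri.Wa : W S v a b c a = -v := by
  have h1 : S.R b c a = 0 := by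
    rw [h.leaf_const hv (e4_mem_Lf T.hb) (e4_mem_Lf T.hc) (e4_mem_Lf T.ha), real_inner_comm a c,
      real_inner_comm a b, T.ac, T.ab]
    simp
  rw [W_apply, h1, h.rho_yy hv T.ha T.ha, T.aa]
  module

theorem QTri.Wb : W S v a b c b = c := by
  rw [W_apply, h.leaf_const hv (e4_mem_Lf T.hb) (e4_mem_Lf T.hc) (e4_mem_Lf T.hb),
    h.rho_yy hv T.ha T.hb, T.ab, T.bb, real_inner_comm b c, T.bc]
  module

theorem QTri.Wc : W S v a b c c = -b := by
  rw [W_apply, h.leaf_const hv (e4_mem_Lf T.hb) (e4_mem_Lf T.hc) (e4_mem_Lf T.hc),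
    h.rho_yy hv T.ha T.hc, T.ac, T.cc, T.bc]
  module

theorem QTri.R_bc (hx : S.K v x = x) : S.R b c x = (2 : ℝ) • J S v a x := by
  have cb : ⟪c, b⟫ = 0 := by rw [real_inner_comm]; exact T.bc
  rw [h.R_yy hv T.hb T.hc, two_J S v c x, two_J S v b x, map_smul, map_smul, two_J, two_J,
    J_anti h hv hx T.hc T.hb cb, T.jbc x hx]
  module

theorem QTri.Wx (hx : S.K v x = x) : W S v a b c x = J S v a x := by
  rw [W_apply, T.R_bc h hv hx, two_J]
  module

/-- decomposition of `V` -/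
theorem QTri.decomp (hd : finrank ℝ (E4 S v) = 3) (z : V) : ∃ (s α β γ : ℝ) (x : V),
    S.K v x = x ∧ z = (s • v + α • a + β • b + γ • c) + x := by
  obtain ⟨w, x, hw, hx, rfl⟩ := h.leaf_decomp hv z
  obtain ⟨s, y, hy, rfl⟩ := mem_Lf.1 hw
  refine ⟨s, ⟪a, y⟫, ⟪b, y⟫, ⟪c, y⟫, x, hx, ?_⟩
  nth_rewrite 1 [span3 hd T.ha T.hb T.hc T.aa T.bb T.cc T.ab T.ac T.bc hy]
  abel

theorem QTri.W_W (hd : finrank ℝ (E4 S v) = 3) (z : V) :
    W S v a b c (W S v a b c z) = -z := by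
  obtain ⟨s, α, β, γ, x, hx, rfl⟩ := T.decomp h hv hd z
  simp only [map_add, map_smul, T.Wv h hv, T.Wa h hv, T.Wb h hv, T.Wc h hv, T.Wx h hv hx,
    map_neg, T.Wx h hv (J_mem h hv hx T.ha), J_sq h hv hx T.ha, T.aa]
  module

theorem QTri.W_mul (hd : finrank ℝ (E4 S v) = 3) (z : V) :
    W S v a b c (W S v b c a z) = W S v c a b z := by
  obtain ⟨s, α, β, γ, x, hx, rfl⟩ := T.decomp h hv hd z
  have T1 := T.rot
  have T2 := T1.rot
  simp only [map_add, map_smul, T.Wv h hv, T.Wa h hv, T.Wb h hv, T.Wc h hv,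
    T1.Wv h hv, T1.Wa h hv, T1.Wb h hv, T1.Wc h hv, T1.Wx h hv hx,
    T2.Wv h hv, T2.Wa h hv, T2.Wb h hv, T2.Wc h hv, T2.Wx h hv hx,
    map_neg, T.Wx h hv (J_mem h hv hx T.hb), T.jab x hx, neg_neg]

/-- **`W u` is in the eigenspace of `4` of `K u`** -/
theorem QTri.K_W (hd : finrank ℝ (E4 S v) = 3) (u : V) :
    S.K u (W S v a b c u) = (4 * ⟪u, u⟫) • W S v a b c u := by
  obtain ⟨s, α, β, γ, x, hx, rfl⟩ := T.decomp h hv hd u
  have T1 := T.rot
  have T2 := T1.rot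
  set l := s • v + α • a + β • b + γ • c with hl
  have hax := J_mem h hv hx T.ha
  have hbx := J_mem h hv hx T.hb
  have hcx := J_mem h hv hx T.hc
  have hlL : l ∈ Lf S v := by
    refine mem_Lf.2 ⟨s, α • a + β • b + γ • c, E4_add (E4_add (E4_smul _ T.ha) (E4_smul _ T.hb))
      (E4_smul _ T.hc), by rw [hl]; abel⟩
  have hWl : W S v a b c l = s • a - α • v + β • c - γ • b := by
    rw [hl]
    simp only [map_add, map_smul, T.Wv h hv, T.Wa h hv, T.Wb h hv, T.Wc h hv]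
    module
  have hWx : W S v a b c x = J S v a x := T.Wx h hv hx
  have hWlL : W S v a b c l ∈ Lf S v := by
    rw [hWl]
    refine mem_Lf.2 ⟨-α, s • a + β • c - γ • b, E4_sub (E4_add (E4_smul _ T.ha) (E4_smul _ T.hc))
      (E4_smul _ T.hb), by module⟩
  have hv1 := inner_self_one hv
  have vo : ∀ {p : V}, S.K v p = (4 : ℝ) • p → ⟪v, p⟫ = 0 := fun hp => by
    rw [real_inner_comm]; exact orth4 hp
  have hll : ⟪l, l⟫ = s ^ 2 + α ^ 2 + β ^ 2 + γ ^ 2 := by
    rw [hl]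
    simp only [inner_add_left, inner_add_right, inner_smul_left, inner_smul_right, conj_trivial,
      hv1, T.aa, T.bb, T.cc, T.ab, T.ac, T.bc, real_inner_comm a b, real_inner_comm a c,
      real_inner_comm b c, orth4 T.ha, orth4 T.hb, orth4 T.hc, vo T.ha, vo T.hb, vo T.hc]
    ring
  have hlx : ⟪l, x⟫ = 0 := by
    rw [hl]
    simp only [inner_add_left, inner_smul_left, conj_trivial]
    rw [real_inner_comm x v, real_inner_comm x a, real_inner_comm x b, real_inner_comm x c,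
      orth1 hx, orth14 hx T.ha, orth14 hx T.hb, orth14 hx T.hc]
    ring
  have huu : ⟪l + x, l + x⟫ = ⟪l, l⟫ + ⟪x, x⟫ := by
    rw [inner_add_left l x (l + x), inner_add_right l l x, inner_add_right x l x,
      real_inner_comm l x, hlx]
    ring
  -- the eight terms
  have t1 : S.R l (W S v a b c l) l = (4 * ⟪l, l⟫) • W S v a b c l := by
    have h1 : ⟪W S v a b c l, l⟫ = 0 := by
      have h2 := W_skew S v a b c l l
      rw [real_inner_comm] at h2 ⊢
      linarith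
    rw [h.leaf_const hv hlL hWlL hlL, h1]
    module
  have t2 : S.R l (W S v a b c l) x = (2 * ⟪l, l⟫) • J S v a x := by
    have e1 := T.R_bc h hv hx
    have e2 := T1.R_bc h hv hx
    have e3 := T2.R_bc h hv hx
    have f1 : S.R c b x = -((2 : ℝ) • J S v a x) := by rw [S.anti, e1]
    have f2 : S.R a c x = -((2 : ℝ) • J S v b x) := by rw [S.anti, e2]
    have f3 : S.R b a x = -((2 : ℝ) • J S v c x) := by rw [S.anti, e3]
    have g : ∀ y, S.R y v x = -((2 : ℝ) • J S v y x) := fun y => by rw [S.anti, two_J]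
    rw [hWl, hl, hll]
    simp only [map_add, map_sub, map_smul, LinearMap.add_apply, LinearMap.sub_apply,
      LinearMap.smul_apply, R_self, LinearMap.zero_apply, e1, e2, e3, f1, f2, f3, g, two_J S v]
    module
  have t3 : S.R l (J S v a x) l = ⟪l, l⟫ • J S v a x := by
    by_cases h0 : l = 0
    · rw [h0]; simp
    have hr := norm_pos_iff.2 h0
    have h1 := h.K_leaf_x hv (u := ‖l‖⁻¹ • l) (Submodule.smul_mem _ _ hlL)
      (nrm_one (exists_unit h0)) hax
    rw [K_apply] at h1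
    simp only [map_smul, LinearMap.smul_apply] at h1
    have h2 : S.R l (J S v a x) l = (‖l‖ * ‖l‖) • (‖l‖⁻¹ • ‖l‖⁻¹ • S.R l (J S v a x) l) := by
      rw [smul_smul, smul_smul]
      have : ‖l‖ * ‖l‖ * ‖l‖⁻¹ * ‖l‖⁻¹ = 1 := by field_simp
      rw [this, one_smul]
    rw [h2, h1, real_inner_self_eq_norm_mul_norm]
  -- `R x y` on the leaf
  have xyl : ∀ {y z : V}, S.K v y = (4 : ℝ) • y → S.K v z = (4 : ℝ) • z →
      S.R x y z = J S v z (J S v y x) := by
    intro y z hy hz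
    rw [h.R_xy' hv hx hy, two_J S v y x, map_smul, LinearMap.smul_apply,
      h.rho_xy hv (J_mem h hv hx hy) hz, J_apply S v z]
    module
  have xyv : ∀ {y : V}, S.K v y = (4 : ℝ) • y → S.R x y v = J S v y x := by
    intro y hy
    have h1 : S.R v (J S v y x) v = J S v y x := J_mem h hv hx hy
    rw [h.R_xy' hv hx hy, two_J S v y x, map_smul, LinearMap.smul_apply, h1]
    module
  have xvl : ∀ {z : V}, S.K v z = (4 : ℝ) • z → S.R x v z = -J S v z x := by
    intro z hz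
    rw [S.anti, h.rho_xy hv hx hz, J_apply]
  have xvv : S.R x v v = -x := by
    have h1 : S.R v x v = x := hx
    rw [S.anti, h1]
  have ca : ⟪c, a⟫ = 0 := by rw [real_inner_comm]; exact T.ac
  have ba : ⟪b, a⟫ = 0 := by rw [real_inner_comm]; exact T.ab
  have cb : ⟪c, b⟫ = 0 := by rw [real_inner_comm]; exact T.bc
  have jac : J S v a (J S v c x) = -J S v b x := by rw [J_anti h hv hx T.ha T.hc T.ac, T.jca x hx]
  have jba : J S v b (J S v a x) = -J S v c x := by rw [J_anti h hv hx T.hb T.ha ba, T.jab x hx]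
  have jcb : J S v c (J S v b x) = -J S v a x := by rw [J_anti h hv hx T.hc T.hb cb, T.jbc x hx]
  have jaa : J S v a (J S v a x) = -x := by rw [J_sq h hv hx T.ha, T.aa]; module
  have jbb : J S v b (J S v b x) = -x := by rw [J_sq h hv hx T.hb, T.bb]; module
  have jcc : J S v c (J S v c x) = -x := by rw [J_sq h hv hx T.hc, T.cc]; module
  have t4 : S.R x (W S v a b c l) l = ⟪l, l⟫ • J S v a x := by
    rw [hWl, hl, hll]
    simp only [map_add, map_sub, map_smul, LinearMap.add_apply, LinearMap.sub_apply,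
      LinearMap.smul_apply, xyl T.ha T.ha, xyl T.ha T.hb, xyl T.ha T.hc, xyl T.hb T.ha,
      xyl T.hb T.hb, xyl T.hb T.hc, xyl T.hc T.ha, xyl T.hc T.hb, xyl T.hc T.hc, xyv T.ha,
      xyv T.hb, xyv T.hc, xvl T.ha, xvl T.hb, xvl T.hc, xvv, T.jab x hx, T.jbc x hx, T.jca x hx,
      jac, jba, jcb, jaa, jbb, jcc]
    module
  -- `R v (J y x) x`
  have vJx : ∀ {y : V}, S.K v y = (4 : ℝ) • y → S.R v (J S v y x) x = ⟪x, x⟫ • y := by
    intro y hy
    rw [rho_xx hv (J_mem h hv hx hy) hx, om_anti, om_J h hv hx hy, inner_J_self']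
    module
  have vxJ : ∀ {y : V}, S.K v y = (4 : ℝ) • y → S.R v x (J S v y x) = -⟪x, x⟫ • y := by
    intro y hy
    rw [rho_xx hv hx (J_mem h hv hx hy), om_J h hv hx hy, inner_J_self]
    module
  have vxx : S.R v x x = -⟪x, x⟫ • v := by
    have h2 : om S v x x = 0 := by unfold om; rw [sub_self, smul_zero]
    rw [rho_xx hv hx hx, h2, add_zero]
  have yJx : ∀ {y : V}, S.K v y = (4 : ℝ) • y →
      S.R y (J S v a x) x = -S.R v (J S v y (J S v a x)) x := by
    intro y hy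
    rw [S.anti, h.R_xy' hv hax hy, two_J S v y (J S v a x), map_smul, LinearMap.smul_apply]
    module
  have t5 : S.R l (J S v a x) x = ⟪x, x⟫ • W S v a b c l := by
    rw [hWl, hl]
    simp only [map_add, map_smul, LinearMap.add_apply, LinearMap.smul_apply, vJx T.ha, yJx T.ha,
      yJx T.hb, yJx T.hc, jaa, jba, T.jca x hx, map_neg, LinearMap.neg_apply, vJx T.hb, vJx T.hc,
      vxx]
    module
  have t6 : S.R x (W S v a b c l) x = ⟪x, x⟫ • W S v a b c l := by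
    have k1 : S.R x v x = ⟪x, x⟫ • v := K_x_v hv hx
    have k2 : ∀ {y : V}, S.K v y = (4 : ℝ) • y → S.R x y x = ⟪x, x⟫ • y :=
      fun hy => K_x_leaf h hv hx hy
    rw [hWl]
    simp only [map_add, map_sub, map_smul, LinearMap.add_apply, LinearMap.sub_apply,
      LinearMap.smul_apply, k1, k2 T.ha, k2 T.hb, k2 T.hc]
    module
  have t7 : S.R x (J S v a x) l = (2 * ⟪x, x⟫) • W S v a b c l := by
    have e0 : ⟪J S v a x, J S v a x⟫ = ⟪x, x⟫ := by rw [J_inner h hv hx T.ha T.ha, T.aa, one_mul]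
    have rv : S.R x (J S v a x) v = (2 * ⟪x, x⟫) • a := by
      rw [R_apply_v, vJx T.ha, vxJ T.ha]
      module
    have gen : ∀ {y : V}, S.K v y = (4 : ℝ) • y → S.R x (J S v a x) y =
        S.R v x (J S v y (J S v a x)) - S.R v (J S v a x) (J S v y x)
          - (4 * ⟪x, x⟫ * ⟪a, y⟫) • v := by
      intro y hy
      rw [R_xx hv hx hax, h.rho_xy hv hax hy, h.rho_xy hv hx hy, om_J h hv hx T.ha,
        ← J_apply, ← J_apply, map_smul, LinearMap.smul_apply, h.rho_yy hv T.ha hy]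
      module
    have ra : S.R x (J S v a x) a = -(2 * ⟪x, x⟫) • v := by
      have h2 : om S v (J S v a x) (J S v a x) = 0 := by unfold om; rw [sub_self, smul_zero]
      rw [gen T.ha, jaa, map_neg, vxx, rho_xx hv hax hax, h2, e0, T.aa]
      module
    have rb : S.R x (J S v a x) b = (2 * ⟪x, x⟫) • c := by
      have h3 : S.R v (J S v a x) (J S v b x) = -⟪x, x⟫ • c := by
        rw [← T.jca x hx, rho_xx hv hax (J_mem h hv hax T.hc), om_J h hv hax T.hc, inner_J_self,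
          e0]
        module
      rw [gen T.hb, jba, map_neg, vxJ T.hc, h3, T.ab]
      module
    have rc : S.R x (J S v a x) c = -(2 * ⟪x, x⟫) • b := by
      have h4 : J S v c x = -J S v b (J S v a x) := by rw [jba, neg_neg]
      have h3 : S.R v (J S v a x) (J S v c x) = ⟪x, x⟫ • b := by
        rw [h4, map_neg, rho_xx hv hax (J_mem h hv hax T.hb), om_J h hv hax T.hb, inner_J_self,
          e0]
        module
      rw [gen T.hc, T.jca x hx, vxJ T.hb, h3, T.ac]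
      module
    rw [hWl, hl]
    simp only [map_add, map_smul, rv, ra, rb, rc]
    module
  have t8 : S.R x (J S v a x) x = (4 * ⟪x, x⟫) • J S v a x := K_J h hv hx T.ha
  rw [K_apply, map_add (W S v a b c) l x, hWx, huu]
  simp only [map_add, LinearMap.add_apply, t1, t2, t3, t4, t5, t6, t7, t8]
  module

end WW

/-- the quaternionic structure and the curvature -/
structure QS (S : ACT V) (I : Fin 3 → V →ₗ[ℝ] V) : Prop where
  skew : ∀ a x y, ⟪I a x, y⟫ = -⟪x, I a y⟫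
  sq : ∀ a x, I a (I a x) = -x
  i01 : ∀ x, I 0 (I 1 x) = I 2 x
  i12 : ∀ x, I 1 (I 2 x) = I 0 x
  i20 : ∀ x, I 2 (I 0 x) = I 1 x
  R : ∀ x y z, S.R x y z = -(⟪y, z⟫ • x - ⟪x, z⟫ • y + ∑ a, (⟪I a y, z⟫ • I a x
    - ⟪I a x, z⟫ • I a y + (2 * ⟪x, I a y⟫) • I a z))

/-- a curvature tensor is determined by its Jacobi operators -/
theorem R_of_K {I : Fin 3 → V →ₗ[ℝ] V} (hs : ∀ a x y, ⟪I a x, y⟫ = -⟪x, I a y⟫)
    (hK : ∀ u z, S.K u z = ⟪u, u⟫ • z - ⟪z, u⟫ • u + (3 : ℝ) • ∑ a, ⟪z, I a u⟫ • I a u)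
    (x y z : V) : S.R x y z = -(⟪y, z⟫ • x - ⟪x, z⟫ • y + ∑ a, (⟪I a y, z⟫ • I a x
    - ⟪I a x, z⟫ • I a y + (2 * ⟪x, I a y⟫) • I a z)) := by
  have hP : ∀ u w z, S.R u z w + S.R w z u = (2 * ⟪u, w⟫) • z - ⟪z, u⟫ • w - ⟪z, w⟫ • u
      + (3 : ℝ) • ∑ a, (⟪z, I a u⟫ • I a w + ⟪z, I a w⟫ • I a u) := by
    intro u w z
    have h1 := hK (u + w) z
    have h2 := hK u z
    have h3 := hK w z
    rw [K_apply] at h1 h2 h3
    simp only [map_add, LinearMap.add_apply, h2, h3, Fin.sum_univ_three, inner_add_left,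
      inner_add_right, real_inner_comm u w] at h1 ⊢
    have h4 : S.R u z w + S.R w z u = (⟪u, u⟫ • z - ⟪z, u⟫ • u + (3 : ℝ) • (⟪z, I 0 u⟫ • I 0 u
        + ⟪z, I 1 u⟫ • I 1 u + ⟪z, I 2 u⟫ • I 2 u) + S.R w z u + (S.R u z w + (⟪w, w⟫ • z
        - ⟪z, w⟫ • w + (3 : ℝ) • (⟪z, I 0 w⟫ • I 0 w + ⟪z, I 1 w⟫ • I 1 w
        + ⟪z, I 2 w⟫ • I 2 w)))) - (⟪u, u⟫ • z - ⟪z, u⟫ • u + (3 : ℝ) • (⟪z, I 0 u⟫ • I 0 u
        + ⟪z, I 1 u⟫ • I 1 u + ⟪z, I 2 u⟫ • I 2 u)) - (⟪w, w⟫ • z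
        - ⟪z, w⟫ • w + (3 : ℝ) • (⟪z, I 0 w⟫ • I 0 w + ⟪z, I 1 w⟫ • I 1 w
        + ⟪z, I 2 w⟫ • I 2 w)) := by abel
    rw [h4, h1]
    module
  have h1 := hP x z y
  have h2 := hP y z x
  have h3 := S.bianchi x y z
  have h4 : (3 : ℝ) • S.R x y z = (S.R x y z + S.R z y x) - (S.R y x z + S.R z x y) := by
    have e1 : S.R y x z = -S.R x y z := S.anti y x z
    have e2 : S.R z y x = -S.R y z x := S.anti z y x
    have e3 : S.R y z x = -S.R x y z - S.R z x y := by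
      rw [← sub_eq_zero, ← h3]; abel
    rw [e1, e2, e3]
    module
  have h5 : S.R x y z = (1 / 3 : ℝ) • ((3 : ℝ) • S.R x y z) := by
    rw [smul_smul]; norm_num
  have s1 : ∀ a, ⟪y, I a x⟫ = -⟪x, I a y⟫ := fun a => by rw [real_inner_comm, hs]
  have s2 : ∀ a, ⟪I a y, z⟫ = -⟪y, I a z⟫ := fun a => hs a y z
  have s3 : ∀ a, ⟪I a x, z⟫ = -⟪x, I a z⟫ := fun a => hs a x z
  rw [h5, h4, h1, h2]
  simp only [Fin.sum_univ_three, s1, s2, s3, real_inner_comm x y, real_inner_comm z y,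
    real_inner_comm z x]
  module

/-- **the quaternionic structure** -/
theorem exists_quat (hn : 2 ≤ finrank ℝ V) (h : S.Nrm 2) (hv : ‖v‖ = 1) (hx₀ : S.K v x₀ = x₀)
    (hx0 : x₀ ≠ 0) (hd : finrank ℝ (E4 S v) = 3) : ∃ I, QS S I := by
  obtain ⟨a, b, c, T⟩ := exists_qtri hn h hv (E1_smul (‖x₀‖⁻¹) hx₀) (nrm_one (exists_unit hx0)) hd
  have T1 := T.rot
  have T2 := T1.rot
  let I : Fin 3 → V →ₗ[ℝ] V := ![W S v a b c, W S v b c a, W S v c a b]
  have hs : ∀ i x y, ⟪I i x, y⟫ = -⟪x, I i y⟫ := by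
    intro i x y
    fin_cases i <;> exact W_skew _ _ _ _ _ _ _
  have hq : ∀ i x, I i (I i x) = -x := by
    intro i x
    fin_cases i
    exacts [T.W_W h hv hd x, T1.W_W h hv hd x, T2.W_W h hv hd x]
  have m01 : ∀ x, I 0 (I 1 x) = I 2 x := T.W_mul h hv hd
  have m12 : ∀ x, I 1 (I 2 x) = I 0 x := T1.W_mul h hv hd
  have m20 : ∀ x, I 2 (I 0 x) = I 1 x := T2.W_mul h hv hd
  have hE : ∀ i u, S.K u (I i u) = (4 * ⟪u, u⟫) • I i u := by
    intro i u
    fin_cases i
    exacts [T.K_W h hv hd u, T1.K_W h hv hd u, T2.K_W h hv hd u]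
  have hself : ∀ i u, ⟪I i u, u⟫ = 0 := by
    intro i u
    have h1 := hs i u u
    rw [real_inner_comm] at h1 ⊢
    linarith
  have hnorm : ∀ i u, ⟪I i u, I i u⟫ = ⟪u, u⟫ := by
    intro i u
    rw [hs, hq, inner_neg_right, neg_neg]
  have o01 : ∀ u, ⟪I 0 u, I 1 u⟫ = 0 := by
    intro u
    have h1 := hs 0 u (I 1 u)
    rw [h1, m01, real_inner_comm, hself, neg_zero]
  have o12 : ∀ u, ⟪I 1 u, I 2 u⟫ = 0 := by
    intro u
    rw [hs, m12, real_inner_comm, hself, neg_zero]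
  have o02 : ∀ u, ⟪I 0 u, I 2 u⟫ = 0 := by
    intro u
    rw [real_inner_comm, hs, m20, real_inner_comm, hself, neg_zero]
  have hK : ∀ u z, S.K u z = ⟪u, u⟫ • z - ⟪z, u⟫ • u + (3 : ℝ) • ∑ i, ⟪z, I i u⟫ • I i u := by
    have unit : ∀ u z, ‖u‖ = 1 → S.K u z = z - ⟪z, u⟫ • u + (3 : ℝ) • ∑ i, ⟪z, I i u⟫ • I i u := by
      intro u z hu
      have hu1 := inner_self_one hu
      have hEu : ∀ i, S.K u (I i u) = (4 : ℝ) • I i u := fun i => by rw [hE, hu1, mul_one]
      have hd' : finrank ℝ (E4 S u) = 3 := by rw [finrank_E4 hn hv hu, hd]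
      have hdec := h.decomp hu z
      have k1 : S.K u (pr1 S 2 u z) = pr1 S 2 u z := by
        rw [h.K_pr1 hu]; norm_num
      have k2 : S.K u (pr2 S 2 u z) = (4 : ℝ) • pr2 S 2 u z := by
        rw [h.K_pr2 hu]; norm_num
      have e1 := span3 hd' (hEu 0) (hEu 1) (hEu 2) (by rw [hnorm, hu1]) (by rw [hnorm, hu1])
        (by rw [hnorm, hu1]) (o01 u) (o02 u) (o12 u) k2
      have e2 : ∀ i, ⟪I i u, pr2 S 2 u z⟫ = ⟪z, I i u⟫ := by
        intro i
        rw [real_inner_comm (I i u) z]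
        nth_rewrite 2 [hdec]
        rw [inner_add_right, inner_add_right, inner_smul_right, hself, mul_zero, zero_add,
          real_inner_comm (pr1 S 2 u z), orth14 k1 (hEu i), zero_add]
      rw [e2, e2, e2] at e1
      have e3 : pr1 S 2 u z = z - ⟪z, u⟫ • u - pr2 S 2 u z := by
        nth_rewrite 2 [hdec]
        abel
      nth_rewrite 1 [hdec]
      rw [map_add, map_add, map_smul, K_self, k1, k2, smul_zero, zero_add, e3,
        Fin.sum_univ_three, e1]
      module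
    intro u z
    by_cases h0 : u = 0
    · rw [h0, K_apply]; simp
    have hr : ‖u‖ ≠ 0 := (norm_pos_iff.2 h0).ne'
    have h1 := unit (‖u‖⁻¹ • u) z (nrm_one (exists_unit h0))
    rw [K_apply] at h1 ⊢
    simp only [map_smul, LinearMap.smul_apply, inner_smul_right, Fin.sum_univ_three] at h1 ⊢
    have h2 : S.R u z u = (‖u‖ * ‖u‖) • (‖u‖⁻¹ • ‖u‖⁻¹ • S.R u z u) := by
      rw [smul_smul, smul_smul]
      have : ‖u‖ * ‖u‖ * ‖u‖⁻¹ * ‖u‖⁻¹ = 1 := by field_simp
      rw [this, one_smul]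
    rw [h2, h1, real_inner_self_eq_norm_mul_norm]
    match_scalars <;> field_simp
  exact ⟨I, hs, hq, m01, m12, m20, R_of_K hs hK⟩

/-! ### the dimension -/

theorem QS.i10 {I : Fin 3 → V →ₗ[ℝ] V} (Q : QS S I) (x : V) : I 1 (I 0 x) = -I 2 x := by
  have h1 := Q.i01 (I 1 (I 0 x))
  rw [Q.sq 1, map_neg, Q.sq 0, neg_neg] at h1
  have h2 := congrArg (I 2) h1
  rw [Q.sq 2] at h2
  rw [← neg_eq_iff_eq_neg, ← h2]

theorem QS.i21 {I : Fin 3 → V →ₗ[ℝ] V} (Q : QS S I) (x : V) : I 2 (I 1 x) = -I 0 x := by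
  have h1 := Q.i12 (I 2 (I 1 x))
  rw [Q.sq 2, map_neg, Q.sq 1, neg_neg] at h1
  have h2 := congrArg (I 0) h1
  rw [Q.sq 0] at h2
  rw [← neg_eq_iff_eq_neg, ← h2]

theorem QS.i02 {I : Fin 3 → V →ₗ[ℝ] V} (Q : QS S I) (x : V) : I 0 (I 2 x) = -I 1 x := by
  have h1 := Q.i20 (I 0 (I 2 x))
  rw [Q.sq 0, map_neg, Q.sq 2, neg_neg] at h1
  have h2 := congrArg (I 1) h1
  rw [Q.sq 1] at h2
  rw [← neg_eq_iff_eq_neg, ← h2]

open Quaternion in
/-- the dimension is divisible by four -/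
theorem QS.dvd {I : Fin 3 → V →ₗ[ℝ] V} (Q : QS S I) : 4 ∣ finrank ℝ V := by
  let _ : SMul (ℍ[ℝ]) V := ⟨fun q x => q.re • x + q.imI • I 0 x + q.imJ • I 1 x + q.imK • I 2 x⟩
  have hsm : ∀ (q : ℍ[ℝ]) (x : V), q • x = q.re • x + q.imI • I 0 x + q.imJ • I 1 x
      + q.imK • I 2 x := fun _ _ => rfl
  let _ : Module (ℍ[ℝ]) V :=
    { one_smul := fun x => by rw [hsm]; simp
      mul_smul := fun p q x => by
        simp only [hsm, map_add, map_smul, Q.sq, Q.i01, Q.i12, Q.i20, Q.i10, Q.i21, Q.i02,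
          Quaternion.re_mul, Quaternion.imI_mul, Quaternion.imJ_mul, Quaternion.imK_mul]
        module
      smul_zero := fun q => by rw [hsm]; simp
      smul_add := fun q x y => by
        simp only [hsm, map_add]
        module
      add_smul := fun p q x => by
        simp only [hsm, Quaternion.re_add, Quaternion.imI_add, Quaternion.imJ_add,
          Quaternion.imK_add]
        module
      zero_smul := fun x => by rw [hsm]; simp }
  have : IsScalarTower ℝ (ℍ[ℝ]) V := ⟨fun r q x => by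
    simp only [hsm, Quaternion.re_smul, Quaternion.imI_smul, Quaternion.imJ_smul,
      Quaternion.imK_smul]
    module⟩
  have h1 := Module.finrank_mul_finrank ℝ (ℍ[ℝ]) V
  rw [Quaternion.finrank_eq_four] at h1
  exact ⟨_, h1.symm⟩

/-- **`d = 3`: the dimension is `4 m` with `m ≥ 2`** -/
theorem exists_m (hn : 2 ≤ finrank ℝ V) (h : S.Nrm 2) (hv : ‖v‖ = 1) (hx₀ : S.K v x₀ = x₀)
    (hx0 : x₀ ≠ 0) (hd : finrank ℝ (E4 S v) = 3) : ∃ m, 2 ≤ m ∧ finrank ℝ V = 4 * m := by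
  obtain ⟨I, Q⟩ := exists_quat hn h hv hx₀ hx0 hd
  obtain ⟨m, hm⟩ := Q.dvd
  refine ⟨m, ?_, hm⟩
  have h1 := finrank_decomp h hv
  have h2 : 0 < finrank ℝ (E1 S v) := by
    rw [Module.finrank_pos_iff_exists_ne_zero]
    exact ⟨⟨x₀, mem_E1.2 hx₀⟩, fun h0 => hx0 (congrArg Subtype.val h0)⟩
  omega

end Vale.Agent.P207.H575
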