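import Vale.Agent.P207.H442.Lam
import Vale.Agent.P207.H575.P20

/-!
# P207 / H575: the inequality for tensors of type (2,0) on quaternionic hyperbolic manifolds

`C` is a calculus with parallel curvature of quaternionic form (`Qp`). For a symmetric, trace free
tensor `h` of type `(2,0)` (`∑ R_ipkc h_pc = 8 h_ik`) with `cas h = -λ h`,
`4 n |div h|² ≤ (n - 4) (λ - 2 n) |h|²`.
-/

set_option linter.unusedSectionVars false
set_option linter.unusedVariables false

noncomputable section

namespace Vale.Agent.P207.H575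

open Finset Vale.Agent.P207.H340 Vale.Agent.P207.H442 Vale.Agent.P207.H442.FrCalc

variable {n : ℕ} {A : Type*} [CommRing A] [Algebra ℝ A] {C : FrCalc n A} {I : A →ₗ[ℝ] ℝ}
  {ι : Type*} {E : ι → A →ₐ[ℝ] ℝ} {h : Fin n → Fin n → A}

variable (C) in
/-- the divergence -/
def dv (h : Fin n → Fin n → A) (k : Fin n) : A := ∑ i, C.H i (h i k)

variable (C) in
/-- `∇h + c δ ⊗ g` -/
def TT (c : ℝ) (h : Fin n → Fin n → A) (i j k : Fin n) : A :=
  C.H i (h j k) + if j = k then c • dv C h i else 0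

variable (C) in
/-- the antisymmetrisation of `TT` -/
def alA (c : ℝ) (h : Fin n → Fin n → A) (i j k : Fin n) : A :=
  TT C c h i j k - (1 / 2 : ℝ) • (TT C c h j i k - ∑ a, ∑ b, C.OmC j a i b * TT C c h a b k)
    - (1 / 2 : ℝ) • (TT C c h k j i + ∑ a, ∑ b, C.OmC k a j b * TT C c h a b i)

/-- the derivative of the condition on the type -/
theorem ro_H (hP : C.Par) (hro : ∀ i k, ∑ p, ∑ c, C.R i p k c * h p c = (8 : ℝ) • h i k)
    (m i k : Fin n) : ∑ p, ∑ c, C.R i p k c * C.H m (h p c) = (8 : ℝ) • C.H m (h i k) := by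
  have h1 := congrArg (C.H m) (hro i k)
  rw [Derivation.map_smul] at h1
  rw [← h1, map_sum]
  refine sum_congr rfl fun p _ => ?_
  rw [map_sum]
  refine sum_congr rfl fun c _ => ?_
  rw [Derivation.leibniz, hP m i p k c]
  simp

theorem tr_H (ht : ∑ i, h i i = 0) (m : Fin n) : ∑ i, C.H m (h i i) = 0 := by
  rw [← map_sum, ht, map_zero]

/-- at each point `TT` is of type (2,0) in the last two indices -/
theorem s20 (hP : C.Par) (c : ℝ) (hs : ∀ i j, h i j = h j i) (ht : ∑ i, h i i = 0)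
    (hro : ∀ i k, ∑ p, ∑ c, C.R i p k c * h p c = (8 : ℝ) • h i k) (f : ι)
    {w : Fin 3 → Matrix (Fin n) (Fin n) ℝ} (hw : Qt w)
    (hR : IsQR w (fun i j k l => E f (C.R i j k l))) :
    S20 w (fun i j k => E f (TT C c h i j k)) := by
  refine ⟨?_, fun s => ?_⟩
  · funext i j k
    change E f (TT C c h i k j) = E f (TT C c h i j k)
    unfold TT
    rw [hs k j]
    by_cases hjk : j = k
    · subst hjk; rfl
    · rw [if_neg hjk, if_neg (Ne.symm hjk)]
  · funext i j k
    -- the matrix of `H_i h`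
    let X : Matrix (Fin n) (Fin n) ℝ := Matrix.of fun j k => E f (C.H i (h j k))
    have hXs : ∀ p q, X q p = X p q := fun p q => by
      simp only [X, Matrix.of_apply]
      rw [hs]
    have hXt : ∑ p, X p p = 0 := by
      have h1 := congrArg (E f) (tr_H (C := C) ht i)
      rw [map_sum, map_zero] at h1
      exact h1
    have hXr : ∀ p q, ∑ a, ∑ b, E f (C.R p a q b) * X a b = 8 * X p q := by
      intro p q
      have h1 := congrArg (E f) (ro_H hP hro i p q)
      simp only [map_sum, map_mul, map_smul, smul_eq_mul] at h1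
      exact h1
    have hXT : X.transpose = X := by
      ext p q
      rw [Matrix.transpose_apply, hXs]
    have hc := comm_of_sum hw hXT (sum_of_ro hw hR hXs hXt hXr) s
    have h1 := congrFun (congrFun hc j) k
    rw [Matrix.mul_apply, Matrix.mul_apply] at h1
    change ∑ c', w s k c' * E f (TT C c h i j c') = -∑ b, w s j b * E f (TT C c h i b k)
    have e1 : ∀ c', w s k c' * E f (TT C c h i j c') =
        -(X j c' * w s c' k) + (if j = c' then w s k c' * E f (c • dv C h i) else 0) := by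
      intro c'
      unfold TT
      rw [map_add, mul_add, hw.skew s c' k, apply_ite (E f), map_zero, mul_ite, mul_zero]
      simp only [X, Matrix.of_apply]
      ring
    have e2 : ∀ b, w s j b * E f (TT C c h i b k) =
        w s j b * X b k + (if b = k then w s j b * E f (c • dv C h i) else 0) := by
      intro b
      unfold TT
      rw [map_add, mul_add, apply_ite (E f), map_zero, mul_ite, mul_zero]
      simp only [X, Matrix.of_apply]
    simp only [e1, e2, sum_add_distrib, sum_neg_distrib, sum_ite_eq, sum_ite_eq', mem_univ,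
      if_true, h1]
    rw [hw.skew s j k]
    ring

/-- the algebraic identity -/
theorem al_eq (hQ : C.Qp E) (hP : C.Par) (hn : n ≠ 4) (c : ℝ) (hs : ∀ i j, h i j = h j i)
    (ht : ∑ i, h i i = 0) (hro : ∀ i k, ∑ p, ∑ c, C.R i p k c * h p c = (8 : ℝ) • h i k) :
    ∑ i, ∑ j, ∑ k, alA C c h i j k * alA C c h i j k =
      (3 : ℝ) • (∑ i, ∑ j, ∑ k, TT C c h i j k * TT C c h i j k)
        - (12 : ℝ) • ∑ i, ∑ j, ∑ k, TT C c h i j k * TT C c h j i k := by
  refine hQ.ext _ _ fun f => ?_
  obtain ⟨w, ε, hw, hq, hR⟩ := hQ.quat f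
  have h1 := (s20 hP c hs ht hro f hw hR).al_sq hw hq
  set T : Arr n := fun i j k => E f (TT C c h i j k) with hT
  have e1 : ∀ i j k, E f (alA C c h i j k) = al w T i j k := by
    intro i j k
    have e2 : ∀ i j k, Ww w T i j k = ∑ a, ∑ b, Om w i a j b * T a b k := by
      intro i j k
      unfold Ww Pw A1 A2 H340.Om
      simp only [Pi.add_apply, Fin.sum_univ_three, mul_sum, ← sum_add_distrib]
      refine sum_congr rfl fun a _ => sum_congr rfl fun b _ => ?_
      ring
    have e3 : al w T i j k = T i j k - (1 / 2 : ℝ) * (T j i k - Ww w T j i k)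
        - (1 / 2 : ℝ) * (T k j i + Ww w T k j i) := rfl
    rw [e3, e2, e2]
    unfold alA
    simp only [map_sub, map_add, map_smul, map_sum, map_mul, smul_eq_mul,
      E_OmC C hn (E f) hw hq hR]
    rfl
  simp only [map_sub, map_smul, map_sum, map_mul, smul_eq_mul, e1]
  exact h1

/-- expansion of the two sums -/
theorem TT_sq (c : ℝ) (ht : ∑ i, h i i = 0) :
    ∑ i, ∑ j, ∑ k, TT C c h i j k * TT C c h i j k =
      ip3 (C.nab h) (C.nab h) + (c ^ 2 * n) • ∑ i, dv C h i * dv C h i := by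
  have e1 : ∀ i j k, TT C c h i j k * TT C c h i j k = C.H i (h j k) * C.H i (h j k)
      + (if j = k then (2 * c) • (dv C h i * C.H i (h j k)) + (c ^ 2) • (dv C h i * dv C h i)
        else 0) := by
    intro i j k
    unfold TT
    by_cases hjk : j = k
    · rw [if_pos hjk, if_pos hjk]
      simp only [Algebra.smul_def, map_mul, map_pow, map_ofNat]
      ring
    · rw [if_neg hjk, if_neg hjk]
      ring
  unfold ip3 nab
  simp only [e1, sum_add_distrib, sum_ite_eq, mem_univ, if_true]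
  congr 1
  have e2 : ∀ i, ∑ j, (2 * c) • (dv C h i * C.H i (h j j)) = 0 := by
    intro i
    rw [← smul_sum, ← mul_sum, tr_H ht, mul_zero, smul_zero]
  have e3 : ∀ i, ∑ _j : Fin n, (c ^ 2) • (dv C h i * dv C h i) =
      (c ^ 2 * n) • (dv C h i * dv C h i) := by
    intro i
    rw [sum_const, card_univ, Fintype.card_fin, ← Nat.cast_smul_eq_nsmul ℝ, smul_smul]
    congr 1
    ring
  simp only [e2, e3, sum_const_zero, zero_add, smul_sum]

theorem TT_sw (c : ℝ) (hs : ∀ i j, h i j = h j i) :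
    ∑ i, ∑ j, ∑ k, TT C c h i j k * TT C c h j i k =
      ip3 (C.nab h) (fun i j k => C.nab h j i k) + (2 * c + c ^ 2) • ∑ i, dv C h i * dv C h i := by
  have e1 : ∀ i j k, TT C c h i j k * TT C c h j i k = C.H i (h j k) * C.H j (h i k)
      + (if i = k then c • (C.H i (h j k) * dv C h j) else 0)
      + (if j = k then c • (dv C h i * C.H j (h i k)) + (if i = k then (c ^ 2) • (dv C h i * dv C h j)
        else 0) else 0) := by
    intro i j k
    unfold TT
    by_cases hjk : j = k
    · by_cases hik : i = k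
      · rw [if_pos hjk, if_pos hik, if_pos hik, if_pos hjk, if_pos hik]
        simp only [Algebra.smul_def, map_pow]
        ring
      · rw [if_pos hjk, if_neg hik, if_neg hik, if_pos hjk, if_neg hik]
        simp only [Algebra.smul_def]
        ring
    · by_cases hik : i = k
      · rw [if_neg hjk, if_pos hik, if_pos hik, if_neg hjk]
        simp only [Algebra.smul_def]
        ring
      · rw [if_neg hjk, if_neg hik, if_neg hik, if_neg hjk]
        ring
  unfold ip3 nab
  simp only [e1, sum_add_distrib, sum_ite_eq, mem_univ, if_true]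
  have e2 : ∑ i, ∑ j, c • (C.H i (h j i) * dv C h j) = c • ∑ i, dv C h i * dv C h i := by
    rw [sum_comm, smul_sum]
    refine sum_congr rfl fun j _ => ?_
    rw [← smul_sum, ← sum_mul]
    congr 2
    unfold dv
    exact sum_congr rfl fun i _ => by rw [hs j i]
  have e3 : ∑ i, ∑ j, c • (dv C h i * C.H j (h i j)) = c • ∑ i, dv C h i * dv C h i := by
    rw [smul_sum]
    refine sum_congr rfl fun i _ => ?_
    rw [← smul_sum, ← mul_sum]
    congr 2
    unfold dv
    exact sum_congr rfl fun j _ => by rw [hs i j]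
  rw [e2, e3]
  have e4 : ∑ i, (c ^ 2) • (dv C h i * dv C h i) = (c ^ 2) • ∑ i, dv C h i * dv C h i := by
    rw [smul_sum]
  rw [e4]
  module

/-- the first curvature term -/
theorem w1_20 (hQ : C.Qp E) (hs : ∀ i j, h i j = h j i)
    (hro : ∀ i k, ∑ p, ∑ c, C.R i p k c * h p c = (8 : ℝ) • h i k) :
    C.W1 h = (-(n : ℝ)) • sq2 h := by
  have e1 : ∀ j k, ∑ i, C.cu h i j i k = -((n : ℝ) • h j k) := by
    intro j k
    unfold cu
    have e2 : ∑ i, ∑ c, C.R i j c i * h c k = -(((n : ℝ) + 8) • h j k) := by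
      rw [sum_comm]
      have e3 : ∀ c, ∑ i, C.R i j c i * h c k = C.Ric j c * h c k := by
        intro c
        unfold Ric
        rw [sum_mul]
        refine sum_congr rfl fun i _ => ?_
        rw [C.R_anti i j c i, C.R_skew j i c i, neg_neg]
      simp only [e3, hQ.ric, ite_mul, zero_mul, neg_mul, smul_mul_assoc, one_mul, sum_ite_eq,
        mem_univ, if_true]
    have e4 : ∑ i, ∑ c, C.R i j c k * h i c = (8 : ℝ) • h j k := by
      rw [← hro j k]
      refine sum_congr rfl fun i _ => sum_congr rfl fun c _ => ?_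
      rw [C.R_anti i j c k, C.R_skew j i c k, neg_neg]
    simp only [sum_add_distrib]
    rw [e2, e4]
    module
  unfold FrCalc.W1 sq2
  rw [sum_comm, smul_sum]
  refine sum_congr rfl fun j _ => ?_
  rw [sum_comm, smul_sum]
  refine sum_congr rfl fun k _ => ?_
  rw [← mul_sum, e1, mul_neg, mul_smul_comm, neg_smul]

/-- the rough Laplacian -/
theorem lap_20 (hQ : C.Qp E) (hh : C.T2 h) (hs : ∀ i j, h i j = h j i)
    (hro : ∀ i k, ∑ p, ∑ c, C.R i p k c * h p c = (8 : ℝ) • h i k) {lam : ℝ}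
    (hcas : ∀ i j, C.cas (h i j) = -(lam • h i j)) (i j : Fin n) :
    C.lap (h i j) = -((lam + 2 * n) • h i j) := by
  have h1 := hh.cas_symm hs i j
  rw [hcas] at h1
  have h2 : ∑ a, (C.Ric a i * h a j + C.Ric a j * h a i) = -((2 * ((n : ℝ) + 8)) • h i j) := by
    simp only [hQ.ric, ite_mul, zero_mul, neg_mul, smul_mul_assoc, one_mul, sum_add_distrib,
      sum_ite_eq', mem_univ, if_true]
    rw [hs j i]
    module
  have h3 : ∑ a, ∑ c, C.R a i c j * h a c = (8 : ℝ) • h i j := by
    rw [← hro i j]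
    refine sum_congr rfl fun a _ => sum_congr rfl fun c _ => ?_
    rw [C.R_anti a i c j, C.R_skew i a c j, neg_neg]
  rw [h2, h3] at h1
  have h4 : C.lap (h i j) = -(lam • h i j) + (-((2 * ((n : ℝ) + 8)) • h i j) +
      (2 : ℝ) • ((8 : ℝ) • h i j)) := by
    rw [h1]
    abel
  rw [h4]
  module

/-- integration by parts without `div h = 0` -/
theorem N1_20 (hI : C.IsInt I) (hh : C.T2 h) (hs : ∀ i j, h i j = h j i) :
    I (ip3 (C.nab h) (fun i j k => C.nab h j i k)) =
      I (∑ k, dv C h k * dv C h k) - I (C.W1 h) := by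
  have e1 : ∀ i j k, I (C.H i (h j k) * C.H j (h i k)) =
      - I (h j k * C.H j (C.H i (h i k))) - I (h j k * C.cu h i j i k) := by
    intro i j k
    rw [hI.H_mul, comm_cu hh, mul_add, map_add]
    ring
  have e2 : I (ip3 (C.nab h) (fun i j k => C.nab h j i k)) =
      ∑ i, ∑ j, ∑ k, (- I (h j k * C.H j (C.H i (h i k))) - I (h j k * C.cu h i j i k)) := by
    unfold ip3 nab
    simp only [map_sum, e1]
  have e3 : ∑ i, ∑ j, ∑ k, (- I (h j k * C.H j (C.H i (h i k)))) =
      I (∑ k, dv C h k * dv C h k) := by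
    have e4 : ∀ i j k, - I (h j k * C.H j (C.H i (h i k))) =
        I (C.H j (h j k) * C.H i (h i k)) := by
      intro i j k
      rw [hI.mul_H, neg_neg]
    simp only [e4]
    have e5 : ∑ i, ∑ j, ∑ k, I (C.H j (h j k) * C.H i (h i k)) =
        ∑ k, ∑ i, ∑ j, I (C.H j (h j k) * C.H i (h i k)) := by
      calc ∑ i, ∑ j, ∑ k, I (C.H j (h j k) * C.H i (h i k))
          = ∑ i, ∑ k, ∑ j, I (C.H j (h j k) * C.H i (h i k)) :=
            sum_congr rfl fun i _ => sum_comm
        _ = _ := sum_comm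
    rw [e5, map_sum]
    refine sum_congr rfl fun k _ => ?_
    unfold dv
    rw [sum_mul_sum, map_sum, sum_comm]
    refine sum_congr rfl fun j _ => ?_
    rw [map_sum]
  rw [e2]
  simp only [sum_sub_distrib]
  rw [e3]
  congr 1
  unfold FrCalc.W1
  simp only [map_sum]

/-- **the bound for the type (2,0)** -/
theorem t20 (hQ : C.Qp E) (hP : C.Par) (hI : C.IsInt I) (hpos : ∀ x : A, 0 ≤ I (x * x))
    (hn : 4 < n) (hh : C.T2 h) (hs : ∀ i j, h i j = h j i) (ht : ∑ i, h i i = 0)
    (hro : ∀ i k, ∑ p, ∑ c, C.R i p k c * h p c = (8 : ℝ) • h i k) {lam : ℝ}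
    (hcas : ∀ i j, C.cas (h i j) = -(lam • h i j)) :
    4 * n * I (∑ k, dv C h k * dv C h k) ≤ ((n : ℝ) - 4) * (lam - 2 * n) * I (sq2 h) := by
  have hn4 : (0 : ℝ) < (n : ℝ) - 4 := by
    have : (4 : ℝ) < n := by exact_mod_cast hn
    linarith
  set c : ℝ := 4 / ((n : ℝ) - 4) with hc
  set D := I (∑ k, dv C h k * dv C h k) with hD
  have h1 := congrArg I (al_eq (C := C) hQ hP (by omega) c hs ht hro)
  rw [TT_sq c ht, TT_sw c hs] at h1
  have h2 : 0 ≤ I (∑ i, ∑ j, ∑ k, alA C c h i j k * alA C c h i j k) := by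
    simp only [map_sum]
    exact sum_nonneg fun i _ => sum_nonneg fun j _ => sum_nonneg fun k _ => hpos _
  have h3 := hI.N0 (h := h) (lap_20 hQ hh hs hro hcas)
  have h4 := N1_20 hI hh hs
  rw [w1_20 hQ hs hro, map_smul, smul_eq_mul] at h4
  rw [h1] at h2
  simp only [map_sub, map_add, map_smul, smul_eq_mul] at h2
  rw [h3, h4, ← hD] at h2
  have h5 : c * ((n : ℝ) - 4) = 4 := by rw [hc]; field_simp
  -- multiply by `(n - 4) / 3`
  have h6 : 0 ≤ ((n : ℝ) - 4) * (3 * ((lam + 2 * n) * I (sq2 h) + c ^ 2 * n * D)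
      - 12 * (D - -(n : ℝ) * I (sq2 h) + (2 * c + c ^ 2) * D)) := mul_nonneg hn4.le h2
  have h7 : ((n : ℝ) - 4) * (3 * ((lam + 2 * n) * I (sq2 h) + c ^ 2 * n * D)
      - 12 * (D - -(n : ℝ) * I (sq2 h) + (2 * c + c ^ 2) * D)) =
      3 * (((n : ℝ) - 4) * (lam - 2 * n) * I (sq2 h) - 4 * n * D) := by
    have h8 : ((n : ℝ) - 4) * (c ^ 2 * n * D * 3 - 12 * c ^ 2 * D) = 48 * D := by
      calc ((n : ℝ) - 4) * (c ^ 2 * n * D * 3 - 12 * c ^ 2 * D)
          = 3 * (c * ((n : ℝ) - 4)) ^ 2 * D := by ring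
        _ = _ := by rw [h5]; ring
    have h9 : ((n : ℝ) - 4) * (24 * c * D) = 96 * D := by
      calc ((n : ℝ) - 4) * (24 * c * D) = 24 * (c * ((n : ℝ) - 4)) * D := by ring
        _ = _ := by rw [h5]; ring
    linear_combination h8 - h9
  rw [h7] at h6
  linarith

/-- in particular `λ ≥ 2 n` -/
theorem t20_ge (hQ : C.Qp E) (hP : C.Par) (hI : C.IsInt I) (hpos : ∀ x : A, 0 ≤ I (x * x))
    (hn : 4 < n) (hh : C.T2 h) (hs : ∀ i j, h i j = h j i) (ht : ∑ i, h i i = 0)
    (hro : ∀ i k, ∑ p, ∑ c, C.R i p k c * h p c = (8 : ℝ) • h i k) {lam : ℝ}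
    (hcas : ∀ i j, C.cas (h i j) = -(lam • h i j)) : 0 ≤ (lam - 2 * n) * I (sq2 h) := by
  have hn4 : (0 : ℝ) < (n : ℝ) - 4 := by
    have : (4 : ℝ) < n := by exact_mod_cast hn
    linarith
  have h1 := t20 hQ hP hI hpos hn hh hs ht hro hcas
  have h2 : 0 ≤ I (∑ k, dv C h k * dv C h k) := by
    rw [map_sum]
    exact sum_nonneg fun k _ => hpos _
  have h3 : 0 ≤ ((n : ℝ) - 4) * ((lam - 2 * n) * I (sq2 h)) := by
    have : 0 ≤ 4 * (n : ℝ) * I (∑ k, dv C h k * dv C h k) := by positivity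
    linarith
  exact nonneg_of_mul_nonneg_right h3 hn4

end Vale.Agent.P207.H575
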