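import Vale.Agent.P207.H575.T20
import Vale.Agent.P207.H442.LamLad
import Vale.Agent.P207.Low.Kfun

/-!
# P207 / H575: `λ ≥ 2 n` for the part of type (2,0), in the ladder language
-/

set_option linter.unusedSectionVars false

noncomputable section

namespace Vale.Agent.P207.H575

open Finset Vale.Agent.P207.H340 Vale.Agent.P207.H442 Vale.Agent.P207.H442.FrCalc
  Vale.Agent.P207.H469 Vale.Agent.P207.H662 Vale.Agent.P207.Low

variable {m : ℕ} {A : Type*} [CommRing A] [Algebra ℝ A] {C : FrCalc (m + 1) A}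
  {I : A →ₗ[ℝ] ℝ} {ι : Type*} {E : ι → A →ₐ[ℝ] ℝ} {d : ℝ}

/-- **the bound for a tensor of type `(2,0)`** -/
theorem lam20_ge {k : Fin (m + 1) → Fin (m + 1) → A} (hQ : C.Qp E) (hI : C.IsInt I)
    (hp : ∀ f, 0 ≤ I (f * f)) (hn : 4 < m + 1) (h : Rk1 C d) (hk : C.T2 k)
    (hs : ∀ i j, k i j = k j i) (ht : ∑ i, k i i = 0)
    (hro : ∀ i j, ∑ p, ∑ c, C.R i p j c * k p c = (8 : ℝ) • k i j) {lam : ℝ}
    (hcas : ∀ i j, C.cas (k i j) = -(lam • k i j))
    (hne : 0 < (h.lad hI hp).ip (h.fB hk) (h.fB hk)) : 2 * ((m : ℝ) + 1) ≤ lam := by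
  have h1 := t20_ge hQ h.par hI hp hn hk hs ht hro hcas
  have ha := H469.avg_00 hI hk hk hs hs 0
  have ht' : H469.tr2 k = 0 := ht
  have hsq : H469.ip k k = sq2 k := rfl
  rw [ht', hsq, zero_mul, map_zero, add_zero] at ha
  have a1 : (h.lad hI hp).ip (h.fB hk) (h.fB hk) = 1 / 4 * I (k 0 0 * k 0 0) := by
    change I (fk k * fk k) = _
    unfold fk
    rw [smul_mul_smul_comm, map_smul, smul_eq_mul]
    norm_num
  rw [a1] at hne
  have h2 : 0 < I (k 0 0 * k 0 0) := by linarith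
  have h3 : 0 < I (sq2 k) := by
    have h4 : (0 : ℝ) < ((m + 1 : ℕ) : ℝ) * (((m + 1 : ℕ) : ℝ) + 2) := by positivity
    have h5 := mul_pos h4 h2
    linarith
  have h6 : 0 ≤ lam - 2 * ((m + 1 : ℕ) : ℝ) := by
    by_contra hneg
    push Not at hneg
    have := mul_neg_of_neg_of_pos hneg h3
    linarith
  push_cast at h6
  linarith

/-- **`w ≠ 0` implies `λ ≥ 2 n`** for the part `w` of type `(2,0)` of a symmetric tensor -/
theorem two_ge {k : Fin (m + 1) → Fin (m + 1) → A} (hQ : C.Qp E) (hI : C.IsInt I)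
    (hp : ∀ f, 0 ≤ I (f * f)) (hdef : ∀ f, I (f * f) = 0 → f = 0) (hn : 4 < m + 1)
    (h : Rk1 C 3) (hR : RankOne C 2 (m + 3 * 3)) (hk : C.T2 k) (hs : ∀ i j, k i j = k j i)
    {lam : ℝ} (hcas : ∀ i j, C.cas (k i j) = (-lam) • k i j) (hne : twoB h hk ≠ 0) :
    2 * ((m : ℝ) + 1) ≤ lam := by
  have hcm := mapF_k20 (C := C) (b := 2) (c₀ := (m : ℝ) + 3 * 3) (D := C.casL)
    (fun i j k l f => cas_R h.par i j k l f) k
  have hkc : mapF C.casL k = (-lam) • k := by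
    funext i j
    exact hcas i j
  rw [hkc, map_smul] at hcm
  refine lam20_ge hQ hI hp hn h (T2_k20 hk (b := 2) (c₀ := (m : ℝ) + 3 * 3)) (k20_symm hs)
    (hR.tr2_k20 k) (fun i j => ?_) (fun i j => ?_) ?_
  · have h1 := congrFun (congrFun (hR.Ro_k20 hs) i) j
    rw [Ro_apply] at h1
    rw [h1, Pi.smul_apply, Pi.smul_apply]
    congr 1
    unfold NN
    push_cast
    ring
  · have h1 := congrFun (congrFun hcm i) j
    change C.cas (k20 C 2 ((m : ℝ) + 3 * 3) k i j) = _ at h1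
    rw [h1, ← neg_smul]
    rfl
  · have h1 : (h.lad hI hp).ip (twoB h hk) (twoB h hk) ≠ 0 := by
      intro h0
      exact hne (Subtype.ext (hdef _ h0))
    exact lt_of_le_of_ne (hp _) (Ne.symm h1)

end Vale.Agent.P207.H575
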